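import Mathlib

/-!
Shared definitions for the switch-chain (KTV) development: Boolean matrices with
prescribed margins, row-pair fibres, column swaps, averaging operators.
-/

namespace Vale.Agent.H90

open Finset

section Abs

variable {Ω : Type*} [Fintype Ω]

/-- Dot product of real functions on a finite type. -/
def dot (f g : Ω → ℝ) : ℝ := ∑ x, f x * g x

/-- Averaging of `f` over `{y | rel x y}` (used for equivalence relations). -/
noncomputable def avgRel (rel : Ω → Ω → Prop) [DecidableRel rel] (f : Ω → ℝ) : Ω → ℝ :=
  fun x => (∑ y ∈ univ.filter (fun y => rel x y), f y) /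
    ((univ.filter (fun y => rel x y)).card : ℝ)

end Abs

section Bip

variable {R C : Type*} [Fintype R] [DecidableEq R] [Fintype C] [DecidableEq C]

/-- Row sum of a Boolean matrix. -/
def rowSum (G : R → C → Bool) (i : R) : ℕ := (univ.filter (fun x => G i x = true)).card

/-- Column sum of a Boolean matrix. -/
def colSum (G : R → C → Bool) (x : C) : ℕ := (univ.filter (fun i => G i x = true)).card

/-- Two Boolean matrices have the same row sums and the same column sums. -/
def SameMarg (G H : R → C → Bool) : Prop :=
  (∀ i, rowSum G i = rowSum H i) ∧ ∀ x, colSum G x = colSum H x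

instance (G H : R → C → Bool) : Decidable (SameMarg G H) := by
  unfold SameMarg; infer_instance

/-- Fibre relation of the row pair `i, j`: same margins and equal rows outside `i, j`. -/
def RelP (i j : R) (G H : R → C → Bool) : Prop :=
  (∀ k, k ≠ i → k ≠ j → G k = H k) ∧ SameMarg G H

instance (i j : R) (G H : R → C → Bool) : Decidable (RelP i j G H) := by
  unfold RelP; infer_instance

/-- Exchange the columns `x` and `y` inside the rows of `S`. -/
def colSwap (S : Finset R) (x y : C) (G : R → C → Bool) : R → C → Bool :=
  fun a b => if a ∈ S then G a (Equiv.swap x y b) else G a b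

/-- Row-pair switch Laplacian (each switch in rows `i, j` is counted twice). -/
noncomputable def LJ (i j : R) (f : (R → C → Bool) → ℝ) : (R → C → Bool) → ℝ :=
  fun G => ∑ x, ∑ y,
    if SameMarg G (colSwap {i, j} x y G) then f G - f (colSwap {i, j} x y G) else 0

/-- Mixed switch pairs: a column swap in rows `p, q` where row `s` distinguishes the columns. -/
def RelB (p q s : R) (G G' : R → C → Bool) : Prop :=
  ∃ x y, G' = colSwap {p, q} x y G ∧ SameMarg G G' ∧ G s x ≠ G s y

end Bip

end Vale.Agent.H90
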