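import Vale.Agent.H90.KTV.Defs

/-!
Abstract layer: dot products, averaging operators of equivalence relations,
and the Lipschitz-contraction lemma for eigenfunctions.
-/

namespace Vale.Agent.H90

open Finset

set_option linter.unusedSectionVars false

section Abs

variable {Ω : Type*} [Fintype Ω]

theorem dot_comm (f g : Ω → ℝ) : dot f g = dot g f := by
  unfold dot; exact Finset.sum_congr rfl (fun x _ => mul_comm _ _)

theorem dot_add_left (f g h : Ω → ℝ) : dot (f + g) h = dot f h + dot g h := by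
  unfold dot; rw [← Finset.sum_add_distrib]
  exact Finset.sum_congr rfl (fun x _ => by simp [add_mul])

theorem dot_add_right (f g h : Ω → ℝ) : dot f (g + h) = dot f g + dot f h := by
  unfold dot; rw [← Finset.sum_add_distrib]
  exact Finset.sum_congr rfl (fun x _ => by simp [mul_add])

theorem dot_sub_left (f g h : Ω → ℝ) : dot (f - g) h = dot f h - dot g h := by
  unfold dot; rw [← Finset.sum_sub_distrib]
  exact Finset.sum_congr rfl (fun x _ => by simp [sub_mul])

theorem dot_sub_right (f g h : Ω → ℝ) : dot f (g - h) = dot f g - dot f h := by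
  unfold dot; rw [← Finset.sum_sub_distrib]
  exact Finset.sum_congr rfl (fun x _ => by simp [mul_sub])

theorem dot_smul_left (c : ℝ) (f g : Ω → ℝ) : dot (c • f) g = c * dot f g := by
  unfold dot; rw [Finset.mul_sum]
  exact Finset.sum_congr rfl (fun x _ => by simp [mul_assoc])

theorem dot_smul_right (c : ℝ) (f g : Ω → ℝ) : dot f (c • g) = c * dot f g := by
  unfold dot; rw [Finset.mul_sum]
  exact Finset.sum_congr rfl (fun x _ => by simp; ring)

theorem dot_self_nonneg (f : Ω → ℝ) : 0 ≤ dot f f := by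
  unfold dot; exact Finset.sum_nonneg (fun x _ => mul_self_nonneg _)

theorem dot_self_eq_zero {f : Ω → ℝ} (h : dot f f = 0) : f = 0 := by
  unfold dot at h
  funext x
  have := (Finset.sum_eq_zero_iff_of_nonneg (fun x _ => mul_self_nonneg (f x))).1 h x
    (Finset.mem_univ x)
  simpa using this

theorem dot_zero_left (g : Ω → ℝ) : dot (0 : Ω → ℝ) g = 0 := by
  unfold dot; simp

theorem dot_zero_right (g : Ω → ℝ) : dot g (0 : Ω → ℝ) = 0 := by
  unfold dot; simp

theorem dot_sum_left {ι : Type*} (s : Finset ι) (F : ι → Ω → ℝ) (g : Ω → ℝ) :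
    dot (∑ i ∈ s, F i) g = ∑ i ∈ s, dot (F i) g := by
  classical
  induction s using Finset.induction_on with
  | empty => simp [dot_zero_left]
  | insert a s ha ih => rw [Finset.sum_insert ha, Finset.sum_insert ha, dot_add_left, ih]

theorem dot_sum_right {ι : Type*} (s : Finset ι) (F : ι → Ω → ℝ) (g : Ω → ℝ) :
    dot g (∑ i ∈ s, F i) = ∑ i ∈ s, dot g (F i) := by
  rw [dot_comm, dot_sum_left]
  exact Finset.sum_congr rfl (fun i _ => dot_comm _ _)

theorem eq_of_dot_eq [DecidableEq Ω] {a b : Ω → ℝ} (h : ∀ g, dot g a = dot g b) : a = b := by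
  funext x
  have := h (Pi.single x 1)
  unfold dot at this
  simpa [Pi.single_apply] using this

/-! ### Averaging operators -/

section avg

variable (rel : Ω → Ω → Prop) [DecidableRel rel]

theorem avgRel_congr (rel' : Ω → Ω → Prop) [DecidableRel rel'] (h : ∀ x y, rel x y ↔ rel' x y)
    (f : Ω → ℝ) : avgRel rel f = avgRel rel' f := by
  funext x
  unfold avgRel
  have : univ.filter (fun y => rel x y) = univ.filter (fun y => rel' x y) := by
    ext y; simp [h]
  rw [this]

theorem avgRel_add (f g : Ω → ℝ) : avgRel rel (f + g) = avgRel rel f + avgRel rel g := by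
  funext x
  simp only [avgRel, Pi.add_apply]
  rw [Finset.sum_add_distrib, add_div]

theorem avgRel_smul (c : ℝ) (f : Ω → ℝ) : avgRel rel (c • f) = c • avgRel rel f := by
  funext x
  simp only [avgRel, Pi.smul_apply, smul_eq_mul]
  rw [← Finset.mul_sum, mul_div_assoc]

theorem avgRel_sub (f g : Ω → ℝ) : avgRel rel (f - g) = avgRel rel f - avgRel rel g := by
  funext x
  simp only [avgRel, Pi.sub_apply]
  rw [Finset.sum_sub_distrib, sub_div]

variable {rel}

theorem card_class_pos (h : Equivalence rel) (x : Ω) :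
    0 < ((univ.filter (fun y => rel x y)).card : ℝ) := by
  have : x ∈ univ.filter (fun y => rel x y) := by simp [h.refl x]
  exact_mod_cast Finset.card_pos.2 ⟨x, this⟩

theorem class_eq (h : Equivalence rel) {x y : Ω} (hxy : rel x y) :
    univ.filter (fun z => rel x z) = univ.filter (fun z => rel y z) := by
  ext z
  simp only [mem_filter, mem_univ, true_and]
  exact ⟨fun hxz => h.trans (h.symm hxy) hxz, fun hyz => h.trans hxy hyz⟩

theorem avgRel_of_rel (h : Equivalence rel) (f : Ω → ℝ) {x y : Ω} (hxy : rel x y) :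
    avgRel rel f x = avgRel rel f y := by
  unfold avgRel
  rw [class_eq h hxy]

theorem avgRel_eq_self (h : Equivalence rel) (f : Ω → ℝ)
    (hf : ∀ x y, rel x y → f x = f y) : avgRel rel f = f := by
  funext x
  unfold avgRel
  have hpos := card_class_pos h x
  have : ∑ y ∈ univ.filter (fun y => rel x y), f y
      = ((univ.filter (fun y => rel x y)).card : ℝ) * f x := by
    rw [← nsmul_eq_mul, ← Finset.sum_const]
    refine Finset.sum_congr rfl (fun y hy => ?_)
    simp only [mem_filter, mem_univ, true_and] at hy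
    exact (hf x y hy).symm
  rw [this]
  field_simp

theorem avgRel_idem (h : Equivalence rel) (f : Ω → ℝ) :
    avgRel rel (avgRel rel f) = avgRel rel f :=
  avgRel_eq_self h _ (fun _ _ hxy => avgRel_of_rel h f hxy)

theorem avgRel_dot (h : Equivalence rel) (f g : Ω → ℝ) :
    dot f (avgRel rel g) = dot (avgRel rel f) g := by
  classical
  have e1 : dot f (avgRel rel g)
      = ∑ x, ∑ y, if rel x y then f x * g y / ((univ.filter (fun z => rel x z)).card : ℝ)
          else 0 := by
    unfold dot avgRel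
    refine Finset.sum_congr rfl (fun x _ => ?_)
    rw [mul_div_assoc', Finset.mul_sum, Finset.sum_div, Finset.sum_filter]
  have e2 : dot (avgRel rel f) g
      = ∑ y, ∑ x, if rel x y then f x * g y / ((univ.filter (fun z => rel x z)).card : ℝ)
          else 0 := by
    unfold dot avgRel
    refine Finset.sum_congr rfl (fun y _ => ?_)
    rw [div_mul_eq_mul_div, Finset.sum_mul, Finset.sum_div, Finset.sum_filter]
    refine Finset.sum_congr rfl (fun x _ => ?_)
    by_cases hxy : rel x y
    · have hyx : rel y x := h.symm hxy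
      simp only [hxy, hyx, if_true]
      rw [class_eq h hyx]
    · have hyx : ¬ rel y x := fun h' => hxy (h.symm h')
      simp [hxy, hyx]
  rw [e1, e2, Finset.sum_comm]

/-- `f - avgRel rel f` -/
theorem dot_avgRel_self_nonneg (h : Equivalence rel) (f : Ω → ℝ) :
    0 ≤ dot f (avgRel rel f) := by
  have : dot f (avgRel rel f) = dot (avgRel rel f) (avgRel rel f) := by
    rw [← avgRel_dot h, avgRel_idem h]
  rw [this]
  exact dot_self_nonneg _

end avg

/-! ### Commuting averaging operators -/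

section comm

variable {r1 r2 : Ω → Ω → Prop} [DecidableRel r1] [DecidableRel r2]

theorem sum_class_transport (h1 : Equivalence r1) (h2 : Equivalence r2)
    (hsq : ∀ x y z, r1 x y → r2 y z → ∃ w, r2 x w ∧ r1 w z)
    (hu : ∀ x y, r1 x y → r2 x y → x = y)
    (g : Ω → ℝ) (hg : ∀ x y, r2 x y → g x = g y) {x x' : Ω} (hxx : r2 x x') :
    ∑ y ∈ univ.filter (fun y => r1 x y), g y = ∑ w ∈ univ.filter (fun w => r1 x' w), g w := by
  classical
  -- forward map
  have hex : ∀ y, r1 x y → ∃ w, r2 y w ∧ r1 w x' :=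
    fun y hy => hsq y x x' (h1.symm hy) hxx
  have hex' : ∀ w, r1 x' w → ∃ y, r2 w y ∧ r1 y x :=
    fun w hw => hsq w x' x (h1.symm hw) (h2.symm hxx)
  let i : Ω → Ω := fun y => if hy : r1 x y then Classical.choose (hex y hy) else y
  let j : Ω → Ω := fun w => if hw : r1 x' w then Classical.choose (hex' w hw) else w
  have hi : ∀ y (hy : r1 x y), r2 y (i y) ∧ r1 (i y) x' := by
    intro y hy
    have := Classical.choose_spec (hex y hy)
    simpa [i, hy] using this
  have hj : ∀ w (hw : r1 x' w), r2 w (j w) ∧ r1 (j w) x := by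
    intro w hw
    have := Classical.choose_spec (hex' w hw)
    simpa [j, hw] using this
  refine Finset.sum_nbij' i j ?_ ?_ ?_ ?_ ?_
  · intro y hy
    simp only [mem_filter, mem_univ, true_and] at hy ⊢
    exact h1.symm (hi y hy).2
  · intro w hw
    simp only [mem_filter, mem_univ, true_and] at hw ⊢
    exact h1.symm (hj w hw).2
  · intro y hy
    simp only [mem_filter, mem_univ, true_and] at hy
    have a := hi y hy
    have hw : r1 x' (i y) := h1.symm a.2
    have b := hj (i y) hw
    -- j (i y) and y are r1-related (both in class of x) and r2-related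
    have c1 : r1 (j (i y)) y := h1.trans b.2 hy
    have c2 : r2 (j (i y)) y := h2.trans (h2.symm b.1) (h2.symm a.1)
    exact hu _ _ c1 c2
  · intro w hw
    simp only [mem_filter, mem_univ, true_and] at hw
    have a := hj w hw
    have hy : r1 x (j w) := h1.symm a.2
    have b := hi (j w) hy
    have c1 : r1 (i (j w)) w := h1.trans b.2 hw
    have c2 : r2 (i (j w)) w := h2.trans (h2.symm b.1) (h2.symm a.1)
    exact hu _ _ c1 c2
  · intro y hy
    simp only [mem_filter, mem_univ, true_and] at hy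
    exact hg _ _ (hi y hy).1

theorem avgRel_preserves_inv (h1 : Equivalence r1) (h2 : Equivalence r2)
    (hsq : ∀ x y z, r1 x y → r2 y z → ∃ w, r2 x w ∧ r1 w z)
    (hu : ∀ x y, r1 x y → r2 x y → x = y)
    (g : Ω → ℝ) (hg : ∀ x y, r2 x y → g x = g y) :
    ∀ x x', r2 x x' → avgRel r1 g x = avgRel r1 g x' := by
  intro x x' hxx
  unfold avgRel
  rw [sum_class_transport h1 h2 hsq hu g hg hxx]
  have hc := sum_class_transport h1 h2 hsq hu (fun _ => (1 : ℝ)) (fun _ _ _ => rfl) hxx
  simp only [Finset.sum_const, nsmul_eq_mul, mul_one] at hc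
  rw [hc]

theorem avgRel_comm [DecidableEq Ω] (h1 : Equivalence r1) (h2 : Equivalence r2)
    (hsq : ∀ x y z, r1 x y → r2 y z → ∃ w, r2 x w ∧ r1 w z)
    (hu : ∀ x y, r1 x y → r2 x y → x = y) (f : Ω → ℝ) :
    avgRel r1 (avgRel r2 f) = avgRel r2 (avgRel r1 f) := by
  have key : ∀ g : Ω → ℝ, avgRel r2 (avgRel r1 (avgRel r2 g)) = avgRel r1 (avgRel r2 g) := by
    intro g
    apply avgRel_eq_self h2
    exact avgRel_preserves_inv h1 h2 hsq hu _ (fun _ _ hxy => avgRel_of_rel h2 g hxy)
  apply eq_of_dot_eq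
  intro g
  calc dot g (avgRel r1 (avgRel r2 f))
      = dot g (avgRel r2 (avgRel r1 (avgRel r2 f))) := by rw [key f]
    _ = dot (avgRel r2 g) (avgRel r1 (avgRel r2 f)) := by rw [avgRel_dot h2]
    _ = dot (avgRel r1 (avgRel r2 g)) (avgRel r2 f) := by rw [avgRel_dot h1]
    _ = dot (avgRel r2 (avgRel r1 (avgRel r2 g))) f := by rw [avgRel_dot h2]
    _ = dot (avgRel r1 (avgRel r2 g)) f := by rw [key g]
    _ = dot (avgRel r2 g) (avgRel r1 f) := by rw [avgRel_dot h1]
    _ = dot g (avgRel r2 (avgRel r1 f)) := by rw [avgRel_dot h2]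

end comm

/-! ### Lipschitz contraction and eigenfunctions -/

theorem exists_max_pair (ρ : Ω → Ω → Prop) (f : Ω → ℝ) :
    ∃ L : ℝ, (∀ x y, ρ x y → |f x - f y| ≤ L) ∧
      ((∃ x y, ρ x y) → ∃ x y, ρ x y ∧ |f x - f y| = L) := by
  classical
  by_cases hne : ∃ x y, ρ x y
  · obtain ⟨x0, y0, h0⟩ := hne
    have hne' : (univ.filter (fun p : Ω × Ω => ρ p.1 p.2)).Nonempty :=
      ⟨(x0, y0), by simp [h0]⟩
    obtain ⟨p, hp, hmax⟩ := Finset.exists_max_image _ (fun p : Ω × Ω => |f p.1 - f p.2|) hne'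
    simp only [mem_filter, mem_univ, true_and] at hp
    refine ⟨|f p.1 - f p.2|, fun x y hxy => ?_, fun _ => ⟨p.1, p.2, hp, rfl⟩⟩
    exact hmax (x, y) (by simp [hxy])
  · refine ⟨0, fun x y hxy => absurd ⟨x, y, hxy⟩ hne, fun h => absurd h hne⟩

theorem lip_eigen (M : (Ω → ℝ) → (Ω → ℝ)) (ρA ρB : Ω → Ω → Prop) (θ : ℝ)
    (hA : ∀ (f : Ω → ℝ) (L : ℝ), (∀ x y, ρA x y → |f x - f y| ≤ L) →
      ∀ x y, ρA x y → |M f x - M f y| ≤ θ * L)
    (hB : ∀ (f : Ω → ℝ) (LA LB : ℝ), (∀ x y, ρA x y → |f x - f y| ≤ LA) →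
      (∀ x y, ρB x y → |f x - f y| ≤ LB) →
      ∀ x y, ρB x y → |M f x - M f y| ≤ θ * (LA + LB))
    (lam : ℝ) (hlam : θ < lam) (f : Ω → ℝ) (hf : M f = lam • f) :
    (∀ x y, ρA x y → f x = f y) ∧ (∀ x y, ρB x y → f x = f y) := by
  have hMf : ∀ x y, M f x - M f y = lam * (f x - f y) := by
    intro x y; rw [hf]; simp [mul_sub]
  -- part A
  have hAzero : ∀ x y, ρA x y → |f x - f y| ≤ 0 := by
    obtain ⟨L, hL, hatt⟩ := exists_max_pair ρA f
    intro x y hxy
    obtain ⟨x0, y0, h0, hL0⟩ := hatt ⟨x, y, hxy⟩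
    have h1 := hA f L hL x0 y0 h0
    rw [hMf, abs_mul, hL0] at h1
    have hLnn : 0 ≤ L := by rw [← hL0]; exact abs_nonneg _
    have h2 : lam * L ≤ |lam| * L := mul_le_mul_of_nonneg_right (le_abs_self lam) hLnn
    have h3 : (lam - θ) * L ≤ 0 := by nlinarith
    have h4 : L ≤ 0 := by
      by_contra hcon
      have hLpos : 0 < L := lt_of_not_ge hcon
      have : 0 < (lam - θ) * L := mul_pos (by linarith) hLpos
      linarith
    exact le_trans (hL x y hxy) h4
  have hBzero : ∀ x y, ρB x y → |f x - f y| ≤ 0 := by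
    obtain ⟨L, hL, hatt⟩ := exists_max_pair ρB f
    intro x y hxy
    obtain ⟨x0, y0, h0, hL0⟩ := hatt ⟨x, y, hxy⟩
    have h1 := hB f 0 L hAzero hL x0 y0 h0
    rw [hMf, abs_mul, hL0, zero_add] at h1
    have hLnn : 0 ≤ L := by rw [← hL0]; exact abs_nonneg _
    have h2 : lam * L ≤ |lam| * L := mul_le_mul_of_nonneg_right (le_abs_self lam) hLnn
    have h3 : (lam - θ) * L ≤ 0 := by nlinarith
    have h4 : L ≤ 0 := by
      by_contra hcon
      have hLpos : 0 < L := lt_of_not_ge hcon
      have : 0 < (lam - θ) * L := mul_pos (by linarith) hLpos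
      linarith
    exact le_trans (hL x y hxy) h4
  refine ⟨fun x y hxy => ?_, fun x y hxy => ?_⟩
  · have := abs_nonpos_iff.1 (hAzero x y hxy); linarith
  · have := abs_nonpos_iff.1 (hBzero x y hxy); linarith

end Abs

end Vale.Agent.H90
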