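import Vale.Agent.H90.KTV.JohnsonGap

/-!
The three-row lemma: for three distinct rows the sum of the three complementary
projections has all its eigenvalues in `{0} ∪ [1, ∞)`, hence the cyclic inequality
needed by the triple trick.
-/

namespace Vale.Agent.H90

open Finset

set_option linter.unusedSectionVars false

section

variable {R C : Type*} [Fintype R] [DecidableEq R] [Fintype C] [DecidableEq C]

/-- If two functions on rows agree off `{a, b}` their sums differ by the values at `a, b`. -/
theorem sum_pair_diff {a b : R} (hab : a ≠ b) (F1 F2 : R → ℕ)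
    (h : ∀ r, r ≠ a → r ≠ b → F1 r = F2 r) :
    (∑ r, F1 r) + (F2 a + F2 b) = (∑ r, F2 r) + (F1 a + F1 b) := by
  classical
  rw [← Finset.sum_add_sum_compl ({a, b} : Finset R) F1,
    ← Finset.sum_add_sum_compl ({a, b} : Finset R) F2, Finset.sum_pair hab, Finset.sum_pair hab]
  have : ∑ r ∈ ({a, b} : Finset R)ᶜ, F1 r = ∑ r ∈ ({a, b} : Finset R)ᶜ, F2 r := by
    refine Finset.sum_congr rfl (fun r hr => ?_)
    simp only [mem_compl, mem_insert, mem_singleton, not_or] at hr
    exact h r hr.1 hr.2
  omega

/-- A column swap in two rows that changes nothing on those rows is the identity. -/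
theorem colSwap_pair_eq_self {a b : R} {x y : C} {G : R → C → Bool}
    (ha : G a x = G a y) (hb : G b x = G b y) : colSwap {a, b} x y G = G := by
  funext r z
  by_cases hr : r ∈ ({a, b} : Finset R)
  · rw [colSwap_apply_mem hr]
    simp only [mem_insert, mem_singleton] at hr
    by_cases hzx : z = x
    · rw [hzx, Equiv.swap_apply_left]
      rcases hr with rfl | rfl
      · exact ha.symm
      · exact hb.symm
    · by_cases hzy : z = y
      · rw [hzy, Equiv.swap_apply_right]
        rcases hr with rfl | rfl
        · exact ha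
        · exact hb
      · rw [Equiv.swap_apply_of_ne_of_ne hzx hzy]
  · rw [colSwap_apply_not_mem hr]

/-- The pattern of a nontrivial margin-preserving column swap in two rows. -/
theorem swap_pattern {a b : R} (hab : a ≠ b) {x y : C} {G : R → C → Bool}
    (hsm : SameMarg G (colSwap {a, b} x y G)) (hne : colSwap {a, b} x y G ≠ G) :
    (G a x = true ∧ G a y = false ∧ G b x = false ∧ G b y = true) ∨
    (G a x = false ∧ G a y = true ∧ G b x = true ∧ G b y = false) := by
  have hxy : x ≠ y := by
    intro h; apply hne; rw [h]; exact colSwap_self _ _ _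
  have hcol := hsm.2 x
  rw [colSum_eq_sum, colSum_eq_sum] at hcol
  have ha' : a ∈ ({a, b} : Finset R) := by simp
  have hb' : b ∈ ({a, b} : Finset R) := by simp
  have key := sum_pair_diff hab (fun r => if G r x = true then 1 else 0)
    (fun r => if colSwap {a, b} x y G r x = true then 1 else 0)
    (fun r hra hrb => by
      have : r ∉ ({a, b} : Finset R) := by simp [hra, hrb]
      show (if G r x = true then 1 else 0) = (if colSwap {a, b} x y G r x = true then 1 else 0)
      rw [colSwap_apply_not_mem this])
  simp only [colSwap_apply_mem ha', colSwap_apply_mem hb', Equiv.swap_apply_left] at key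
  have hdiff : ¬ (G a x = G a y ∧ G b x = G b y) :=
    fun h => hne (colSwap_pair_eq_self h.1 h.2)
  rw [hcol] at key
  rcases Bool.eq_false_or_eq_true (G a x) with h1 | h1 <;>
  rcases Bool.eq_false_or_eq_true (G a y) with h2 | h2 <;>
  rcases Bool.eq_false_or_eq_true (G b x) with h3 | h3 <;>
  rcases Bool.eq_false_or_eq_true (G b y) with h4 | h4 <;>
  simp [h1, h2, h3, h4] at key hdiff ⊢

theorem relB_comm (p q s : R) (G G' : R → C → Bool) : RelB p q s G G' ↔ RelB q p s G G' := by
  unfold RelB
  rw [Finset.pair_comm]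

/-- Claim B for the pair `(a, e)`. -/
theorem claimB_ae (a b e : R) (hab : a ≠ b) (hae : a ≠ e) (hbe : b ≠ e)
    (g : (R → C → Bool) → ℝ) (LA LB : ℝ)
    (hA : ∀ A x y, SameMarg A (colSwap {a, b, e} x y A) →
      |g A - g (colSwap {a, b, e} x y A)| ≤ LA)
    (hB : ∀ A A', (RelB a b e A A' ∨ RelB b e a A A' ∨ RelB e a b A A') → |g A - g A'| ≤ LB)
    (G : R → C → Bool) (x y : C) (hsm : SameMarg G (colSwap {a, b} x y G))
    (hne : G e x ≠ G e y) :
    |avgRel (RelP a e) g G - avgRel (RelP a e) g (colSwap {a, b} x y G)| ≤ LA + LB := by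
  have hLB : 0 ≤ LB := le_trans (abs_nonneg _) (hB G _ (Or.inl ⟨x, y, rfl, hsm, hne⟩))
  have hLA : 0 ≤ LA := by
    have := hA G x x (by rw [colSwap_self]; exact sameMarg_refl G)
    rw [colSwap_self, sub_self, abs_zero] at this
    exact this
  by_cases htriv : colSwap {a, b} x y G = G
  · rw [htriv, sub_self, abs_zero]; linarith
  have he : e ∉ ({a, b} : Finset R) := by
    simp only [mem_insert, mem_singleton, not_or]
    exact ⟨fun h => hae h.symm, fun h => hbe h.symm⟩
  have ha' : a ∈ ({a, b} : Finset R) := by simp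
  have hb' : b ∈ ({a, b} : Finset R) := by simp
  have hG'e : colSwap {a, b} x y G e = G e := colSwap_apply_not_mem he
  have hback : colSwap {a, b} x y (colSwap {a, b} x y G) = G := colSwap_invol _ _ _ _
  have hback' : colSwap {a, b} y x (colSwap {a, b} x y G) = G := by
    rw [colSwap_comm]; exact hback
  rcases swap_pattern hab hsm htriv with ⟨h1, h2, h3, h4⟩ | ⟨h1, h2, h3, h4⟩
  · -- a : (1,0), b : (0,1)
    rcases Bool.eq_false_or_eq_true (G e x) with h5 | h5
    · -- e : (1,0)
      have h6 : G e y = false := by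
        rcases Bool.eq_false_or_eq_true (G e y) with h | h
        · rw [h5, h] at hne; exact absurd rfl hne
        · exact h
      exact Pending.g3_caseI a b e hab hae hbe g LA LB hA hB G x y h1 h2 h3 h4 h5 h6
    · -- e : (0,1): use G' with columns (y, x)
      have h6 : G e y = true := by
        rcases Bool.eq_false_or_eq_true (G e y) with h | h
        · exact h
        · rw [h5, h] at hne; exact absurd rfl hne
      have := Pending.g3_caseI a b e hab hae hbe g LA LB hA hB (colSwap {a, b} x y G) y x
        (by rw [colSwap_apply_mem ha', Equiv.swap_apply_right]; exact h1)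
        (by rw [colSwap_apply_mem ha', Equiv.swap_apply_left]; exact h2)
        (by rw [colSwap_apply_mem hb', Equiv.swap_apply_right]; exact h3)
        (by rw [colSwap_apply_mem hb', Equiv.swap_apply_left]; exact h4)
        (by rw [hG'e]; exact h6) (by rw [hG'e]; exact h5)
      rw [hback'] at this
      rw [abs_sub_comm]; exact this
  · -- a : (0,1), b : (1,0)
    rcases Bool.eq_false_or_eq_true (G e x) with h5 | h5
    · -- e : (1,0): use G' with columns (x, y)
      have h6 : G e y = false := by
        rcases Bool.eq_false_or_eq_true (G e y) with h | h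
        · rw [h5, h] at hne; exact absurd rfl hne
        · exact h
      have := Pending.g3_caseI a b e hab hae hbe g LA LB hA hB (colSwap {a, b} x y G) x y
        (by rw [colSwap_apply_mem ha', Equiv.swap_apply_left]; exact h2)
        (by rw [colSwap_apply_mem ha', Equiv.swap_apply_right]; exact h1)
        (by rw [colSwap_apply_mem hb', Equiv.swap_apply_left]; exact h4)
        (by rw [colSwap_apply_mem hb', Equiv.swap_apply_right]; exact h3)
        (by rw [hG'e]; exact h5) (by rw [hG'e]; exact h6)
      rw [hback] at this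
      rw [abs_sub_comm]; exact this
    · -- e : (0,1): use G with columns (y, x)
      have h6 : G e y = true := by
        rcases Bool.eq_false_or_eq_true (G e y) with h | h
        · exact h
        · rw [h5, h] at hne; exact absurd rfl hne
      have := Pending.g3_caseI a b e hab hae hbe g LA LB hA hB G y x h2 h1 h4 h3 h6 h5
      rw [colSwap_comm] at this
      exact this

/-- Claim B: bounds for the three averages along a mixed switch in rows `a, b`. -/
theorem claimB_core (a b e : R) (hab : a ≠ b) (hae : a ≠ e) (hbe : b ≠ e)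
    (g : (R → C → Bool) → ℝ) (LA LB : ℝ)
    (hA : ∀ A x y, SameMarg A (colSwap {a, b, e} x y A) →
      |g A - g (colSwap {a, b, e} x y A)| ≤ LA)
    (hB : ∀ A A', (RelB a b e A A' ∨ RelB b e a A A' ∨ RelB e a b A A') → |g A - g A'| ≤ LB)
    (G G' : R → C → Bool) (h : RelB a b e G G') :
    avgRel (RelP a b) g G = avgRel (RelP a b) g G' ∧
    |avgRel (RelP a e) g G - avgRel (RelP a e) g G'| ≤ LA + LB ∧
    |avgRel (RelP b e) g G - avgRel (RelP b e) g G'| ≤ LA + LB := by
  obtain ⟨x, y, rfl, hsm, hne⟩ := h
  refine ⟨avgRel_of_rel (relP_equiv a b) g (relP_colSwap hsm), ?_, ?_⟩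
  · exact claimB_ae a b e hab hae hbe g LA LB hA hB G x y hsm hne
  · have hS : ({b, a, e} : Finset R) = {a, b, e} := by
      ext r; simp only [mem_insert, mem_singleton]; tauto
    have hA' : ∀ A x y, SameMarg A (colSwap {b, a, e} x y A) →
        |g A - g (colSwap {b, a, e} x y A)| ≤ LA := by
      intro A x y hh; rw [hS] at hh ⊢; exact hA A x y hh
    have hB' : ∀ A A', (RelB b a e A A' ∨ RelB a e b A A' ∨ RelB e b a A A') →
        |g A - g A'| ≤ LB := by
      intro A A' hh
      apply hB
      rcases hh with hh | hh | hh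
      · exact Or.inl ((relB_comm b a e A A').1 hh)
      · exact Or.inr (Or.inr ((relB_comm a e b A A').1 hh))
      · exact Or.inr (Or.inl ((relB_comm e b a A A').1 hh))
    have hP : ({b, a} : Finset R) = {a, b} := Finset.pair_comm b a
    have := claimB_ae b a e hab.symm hbe hae g LA LB hA' hB' G x y (by rw [hP]; exact hsm) hne
    rw [hP] at this
    exact this

/-- The sum of the three complementary projections of a row triple. -/
noncomputable def Kt (i j k : R) (f : (R → C → Bool) → ℝ) : (R → C → Bool) → ℝ :=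
  Qrel (RelP i j) f + Qrel (RelP j k) f + Qrel (RelP k i) f

theorem Kt_add (i j k : R) (f g : (R → C → Bool) → ℝ) :
    Kt i j k (f + g) = Kt i j k f + Kt i j k g := by
  unfold Kt; rw [Qrel_add, Qrel_add, Qrel_add]; abel

theorem Kt_smul (i j k : R) (c : ℝ) (f : (R → C → Bool) → ℝ) :
    Kt i j k (c • f) = c • Kt i j k f := by
  unfold Kt; rw [Qrel_smul, Qrel_smul, Qrel_smul, smul_add, smul_add]

theorem Kt_dot (i j k : R) (f g : (R → C → Bool) → ℝ) :
    dot f (Kt i j k g) = dot (Kt i j k f) g := by
  unfold Kt
  rw [dot_add_right, dot_add_right, dot_add_left, dot_add_left,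
    Qrel_dot (relP_equiv i j), Qrel_dot (relP_equiv j k), Qrel_dot (relP_equiv k i)]

/-- Pointwise form of `g - (1/3) Kt g` as the average of the three fibre averages. -/
theorem M3_apply (i j k : R) (g : (R → C → Bool) → ℝ) (G : R → C → Bool) :
    (g - (1 / 3 : ℝ) • Kt i j k g) G
      = (1 / 3 : ℝ) * (avgRel (RelP i j) g G + avgRel (RelP j k) g G + avgRel (RelP k i) g G) := by
  simp only [Kt, Qrel, Pi.sub_apply, Pi.smul_apply, Pi.add_apply, smul_eq_mul]
  ring

/-- The eigenvalues of `Kt` are `0` or at least `1`. -/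
theorem Kt_eigen (i j k : R) (hij : i ≠ j) (hjk : j ≠ k) (hik : i ≠ k) (μ : ℝ)
    (f : (R → C → Bool) → ℝ) (hf0 : f ≠ 0) (hf : Kt i j k f = μ • f) : μ = 0 ∨ 1 ≤ μ := by
  by_contra hcon
  have hμ0 : μ ≠ 0 := fun h => hcon (Or.inl h)
  have hμ1 : μ < 1 := lt_of_not_ge (fun h => hcon (Or.inr h))
  let M : ((R → C → Bool) → ℝ) → ((R → C → Bool) → ℝ) := fun g => g - (1 / 3 : ℝ) • Kt i j k g
  let ρA : (R → C → Bool) → (R → C → Bool) → Prop :=
    fun G G' => ∃ x y, G' = colSwap {i, j, k} x y G ∧ SameMarg G G'
  let ρB : (R → C → Bool) → (R → C → Bool) → Prop :=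
    fun G G' => RelB i j k G G' ∨ RelB j k i G G' ∨ RelB k i j G G'
  have hki : avgRel (RelP k i) = (avgRel (RelP i k) : ((R → C → Bool) → ℝ) → _) := by
    funext g; exact avgRel_congr _ _ (fun G H => relP_comm k i G H) g
  have hA : ∀ (g : (R → C → Bool) → ℝ) (L : ℝ), (∀ G G', ρA G G' → |g G - g G'| ≤ L) →
      ∀ G G', ρA G G' → |M g G - M g G'| ≤ (2 / 3 : ℝ) * L := by
    intro g L hL G G' hGG'
    obtain ⟨x, y, rfl, hsm⟩ := hGG'
    have hL' : ∀ A x y, SameMarg A (colSwap {i, j, k} x y A) →
        |g A - g (colSwap {i, j, k} x y A)| ≤ L :=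
      fun A x y hA => hL A _ ⟨x, y, rfl, hA⟩
    have hc := Pending.g3_claimA i j k hij hjk hik g L hL' G x y hsm
    show |(g - (1 / 3 : ℝ) • Kt i j k g) G
      - (g - (1 / 3 : ℝ) • Kt i j k g) (colSwap {i, j, k} x y G)| ≤ _
    rw [M3_apply, M3_apply, hki, ← mul_sub, abs_mul, abs_of_pos (by norm_num : (0 : ℝ) < 1 / 3)]
    linarith
  have hB : ∀ (g : (R → C → Bool) → ℝ) (LA LB : ℝ), (∀ G G', ρA G G' → |g G - g G'| ≤ LA) →
      (∀ G G', ρB G G' → |g G - g G'| ≤ LB) →
      ∀ G G', ρB G G' → |M g G - M g G'| ≤ (2 / 3 : ℝ) * (LA + LB) := by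
    intro g LA LB hLA hLB G G' hGG'
    have hA1 : ∀ A x y, SameMarg A (colSwap {i, j, k} x y A) →
        |g A - g (colSwap {i, j, k} x y A)| ≤ LA :=
      fun A x y hA => hLA A _ ⟨x, y, rfl, hA⟩
    have hS2 : ({j, k, i} : Finset R) = {i, j, k} := by
      ext r; simp only [mem_insert, mem_singleton]; tauto
    have hS3 : ({k, i, j} : Finset R) = {i, j, k} := by
      ext r; simp only [mem_insert, mem_singleton]; tauto
    have hA2 : ∀ A x y, SameMarg A (colSwap {j, k, i} x y A) →
        |g A - g (colSwap {j, k, i} x y A)| ≤ LA := by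
      intro A x y hh; rw [hS2] at hh ⊢; exact hA1 A x y hh
    have hA3 : ∀ A x y, SameMarg A (colSwap {k, i, j} x y A) →
        |g A - g (colSwap {k, i, j} x y A)| ≤ LA := by
      intro A x y hh; rw [hS3] at hh ⊢; exact hA1 A x y hh
    have hB1 : ∀ A A', (RelB i j k A A' ∨ RelB j k i A A' ∨ RelB k i j A A') →
        |g A - g A'| ≤ LB := fun A A' hh => hLB A A' hh
    have hB2 : ∀ A A', (RelB j k i A A' ∨ RelB k i j A A' ∨ RelB i j k A A') →
        |g A - g A'| ≤ LB := by
      intro A A' hh; apply hLB
      rcases hh with hh | hh | hh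
      · exact Or.inr (Or.inl hh)
      · exact Or.inr (Or.inr hh)
      · exact Or.inl hh
    have hB3 : ∀ A A', (RelB k i j A A' ∨ RelB i j k A A' ∨ RelB j k i A A') →
        |g A - g A'| ≤ LB := by
      intro A A' hh; apply hLB
      rcases hh with hh | hh | hh
      · exact Or.inr (Or.inr hh)
      · exact Or.inl hh
      · exact Or.inr (Or.inl hh)
    have hjk' : avgRel (RelP k j) = (avgRel (RelP j k) : ((R → C → Bool) → ℝ) → _) := by
      funext g'; exact avgRel_congr _ _ (fun G H => relP_comm k j G H) g'
    have hij' : avgRel (RelP j i) = (avgRel (RelP i j) : ((R → C → Bool) → ℝ) → _) := by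
      funext g'; exact avgRel_congr _ _ (fun G H => relP_comm j i G H) g'
    show |(g - (1 / 3 : ℝ) • Kt i j k g) G - (g - (1 / 3 : ℝ) • Kt i j k g) G'| ≤ _
    rw [M3_apply, M3_apply, ← mul_sub, abs_mul, abs_of_pos (by norm_num : (0 : ℝ) < 1 / 3)]
    have bound : |(avgRel (RelP i j) g G + avgRel (RelP j k) g G + avgRel (RelP k i) g G)
        - (avgRel (RelP i j) g G' + avgRel (RelP j k) g G' + avgRel (RelP k i) g G')|
        ≤ 2 * (LA + LB) := by
      rcases hGG' with hh | hh | hh
      · -- switch in rows i, j; third row k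
        obtain ⟨e1, e2, e3⟩ := claimB_core i j k hij hik hjk g LA LB hA1 hB1 G G' hh
        rw [hki]
        have : (avgRel (RelP i j) g G + avgRel (RelP j k) g G + avgRel (RelP i k) g G)
            - (avgRel (RelP i j) g G' + avgRel (RelP j k) g G' + avgRel (RelP i k) g G')
            = (avgRel (RelP i k) g G - avgRel (RelP i k) g G')
              + (avgRel (RelP j k) g G - avgRel (RelP j k) g G') := by rw [e1]; ring
        rw [this]
        calc _ ≤ |avgRel (RelP i k) g G - avgRel (RelP i k) g G'|
              + |avgRel (RelP j k) g G - avgRel (RelP j k) g G'| := abs_add_le _ _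
          _ ≤ 2 * (LA + LB) := by linarith
      · -- switch in rows j, k; third row i
        obtain ⟨e1, e2, e3⟩ := claimB_core j k i hjk hij.symm hik.symm g LA LB hA2 hB2 G G' hh
        rw [hij'] at e2
        have : (avgRel (RelP i j) g G + avgRel (RelP j k) g G + avgRel (RelP k i) g G)
            - (avgRel (RelP i j) g G' + avgRel (RelP j k) g G' + avgRel (RelP k i) g G')
            = (avgRel (RelP i j) g G - avgRel (RelP i j) g G')
              + (avgRel (RelP k i) g G - avgRel (RelP k i) g G') := by rw [e1]; ring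
        rw [this]
        calc _ ≤ |avgRel (RelP i j) g G - avgRel (RelP i j) g G'|
              + |avgRel (RelP k i) g G - avgRel (RelP k i) g G'| := abs_add_le _ _
          _ ≤ 2 * (LA + LB) := by linarith
      · -- switch in rows k, i; third row j
        obtain ⟨e1, e2, e3⟩ := claimB_core k i j hik.symm hjk.symm hij g LA LB hA3 hB3 G G' hh
        rw [hjk'] at e2
        have : (avgRel (RelP i j) g G + avgRel (RelP j k) g G + avgRel (RelP k i) g G)
            - (avgRel (RelP i j) g G' + avgRel (RelP j k) g G' + avgRel (RelP k i) g G')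
            = (avgRel (RelP j k) g G - avgRel (RelP j k) g G')
              + (avgRel (RelP i j) g G - avgRel (RelP i j) g G') := by rw [e1]; ring
        rw [this]
        calc _ ≤ |avgRel (RelP j k) g G - avgRel (RelP j k) g G'|
              + |avgRel (RelP i j) g G - avgRel (RelP i j) g G'| := abs_add_le _ _
          _ ≤ 2 * (LA + LB) := by linarith
    linarith
  have hMf : M f = (1 - μ / 3) • f := by
    funext G
    simp only [M, Pi.sub_apply, Pi.smul_apply, smul_eq_mul, hf]
    ring
  have hlam : (2 / 3 : ℝ) < 1 - μ / 3 := by linarith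
  obtain ⟨invA, invB⟩ := lip_eigen M ρA ρB (2 / 3) hA hB (1 - μ / 3) hlam f hMf
  -- f is invariant under all margin-preserving column swaps in two rows of the triple
  have hinv : ∀ (a b e : R), ({a, b, e} : Finset R) = {i, j, k} → e ∉ ({a, b} : Finset R) →
      (∀ A A', RelB a b e A A' → ρB A A') →
      ∀ A x y, SameMarg A (colSwap {a, b} x y A) → f A = f (colSwap {a, b} x y A) := by
    intro a b e hS he hρ A x y hA
    by_cases hexy : A e x = A e y
    · -- the swap is a full swap of the triple
      have hfull : colSwap {a, b} x y A = colSwap {i, j, k} x y A := by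
        rw [← hS]
        funext r z
        by_cases hr : r ∈ ({a, b} : Finset R)
        · have hr' : r ∈ ({a, b, e} : Finset R) := by
            simp only [mem_insert, mem_singleton] at hr ⊢; tauto
          rw [colSwap_apply_mem hr, colSwap_apply_mem hr']
        · rw [colSwap_apply_not_mem hr]
          by_cases hre : r = e
          · have hr' : r ∈ ({a, b, e} : Finset R) := by simp [hre]
            rw [colSwap_apply_mem hr', hre]
            by_cases hzx : z = x
            · rw [hzx, Equiv.swap_apply_left]; exact hexy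
            · by_cases hzy : z = y
              · rw [hzy, Equiv.swap_apply_right]; exact hexy.symm
              · rw [Equiv.swap_apply_of_ne_of_ne hzx hzy]
          · have hr' : r ∉ ({a, b, e} : Finset R) := by
              simp only [mem_insert, mem_singleton] at hr ⊢; tauto
            rw [colSwap_apply_not_mem hr']
      rw [hfull] at hA ⊢
      exact invA A _ ⟨x, y, rfl, hA⟩
    · exact invB A _ (hρ A _ ⟨x, y, rfl, hA, hexy⟩)
  have hS2 : ({j, k, i} : Finset R) = {i, j, k} := by
    ext r; simp only [mem_insert, mem_singleton]; tauto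
  have hS3 : ({k, i, j} : Finset R) = {i, j, k} := by
    ext r; simp only [mem_insert, mem_singleton]; tauto
  have inv1 := hinv i j k rfl (by simp [hik.symm, hjk.symm]) (fun A A' h => Or.inl h)
  have inv2 := hinv j k i hS2 (by simp [hij, hik]) (fun A A' h => Or.inr (Or.inl h))
  have inv3 := hinv k i j hS3 (by simp [hjk, hij.symm]) (fun A A' h => Or.inr (Or.inr h))
  have q1 : Qrel (RelP i j) f = 0 :=
    Qrel_eq_zero_of_inv (relP_equiv i j) f (Pending.johnson_inv i j hij f inv1)
  have q2 : Qrel (RelP j k) f = 0 :=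
    Qrel_eq_zero_of_inv (relP_equiv j k) f (Pending.johnson_inv j k hjk f inv2)
  have q3 : Qrel (RelP k i) f = 0 :=
    Qrel_eq_zero_of_inv (relP_equiv k i) f (Pending.johnson_inv k i hik.symm f inv3)
  have hK0 : Kt i j k f = 0 := by
    unfold Kt; rw [q1, q2, q3]; simp
  rw [hK0] at hf
  have : f = 0 := by
    funext G
    have := congrFun hf G
    simp only [Pi.zero_apply, Pi.smul_apply, smul_eq_mul] at this
    rcases mul_eq_zero.1 this.symm with h | h
    · exact absurd h hμ0
    · exact h
  exact hf0 this

/-- The cyclic inequality for a row triple. -/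
theorem g3_cyclic (i j k : R) (hij : i ≠ j) (hjk : j ≠ k) (hik : i ≠ k)
    (f : (R → C → Bool) → ℝ) :
    0 ≤ dot (Qrel (RelP i j) f) (Qrel (RelP j k) f)
      + dot (Qrel (RelP j k) f) (Qrel (RelP k i) f)
      + dot (Qrel (RelP k i) f) (Qrel (RelP i j) f) := by
  have hsq := Pending.spec_sq (Kt i j k) (Kt_add i j k) (Kt_smul i j k) (Kt_dot i j k) 1
    (by norm_num) (fun μ g hg0 hg => Kt_eigen i j k hij hjk hik μ g hg0 hg) f
  have e1 : dot f (Kt i j k f) = dot (Qrel (RelP i j) f) (Qrel (RelP i j) f)
      + dot (Qrel (RelP j k) f) (Qrel (RelP j k) f)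
      + dot (Qrel (RelP k i) f) (Qrel (RelP k i) f) := by
    unfold Kt
    rw [dot_add_right, dot_add_right, dot_Qrel_self (relP_equiv i j),
      dot_Qrel_self (relP_equiv j k), dot_Qrel_self (relP_equiv k i)]
  have e2 : dot (Kt i j k f) (Kt i j k f) = dot (Qrel (RelP i j) f) (Qrel (RelP i j) f)
      + dot (Qrel (RelP j k) f) (Qrel (RelP j k) f)
      + dot (Qrel (RelP k i) f) (Qrel (RelP k i) f)
      + 2 * (dot (Qrel (RelP i j) f) (Qrel (RelP j k) f)
        + dot (Qrel (RelP j k) f) (Qrel (RelP k i) f)
        + dot (Qrel (RelP k i) f) (Qrel (RelP i j) f)) := by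
    unfold Kt
    simp only [dot_add_left, dot_add_right]
    rw [dot_comm (Qrel (RelP j k) f) (Qrel (RelP i j) f),
      dot_comm (Qrel (RelP k i) f) (Qrel (RelP j k) f),
      dot_comm (Qrel (RelP i j) f) (Qrel (RelP k i) f)]
    ring
  rw [e1, e2] at hsq
  linarith

end

end Vale.Agent.H90
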