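import Vale.Agent.H90.KTV.Defs

/-!
Basic lemmas on column swaps, margins and row-pair fibres.
-/

namespace Vale.Agent.H90

open Finset

set_option linter.unusedSectionVars false

variable {R C : Type*} [Fintype R] [DecidableEq R] [Fintype C] [DecidableEq C]

theorem colSwap_apply_mem {S : Finset R} {x y : C} {G : R → C → Bool} {a : R} (ha : a ∈ S)
    (b : C) : colSwap S x y G a b = G a (Equiv.swap x y b) := by
  simp [colSwap, ha]

theorem colSwap_apply_not_mem {S : Finset R} {x y : C} {G : R → C → Bool} {a : R}
    (ha : a ∉ S) : colSwap S x y G a = G a := by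
  funext b; simp [colSwap, ha]

theorem colSwap_invol (S : Finset R) (x y : C) (G : R → C → Bool) :
    colSwap S x y (colSwap S x y G) = G := by
  funext a b
  by_cases ha : a ∈ S <;> simp [colSwap, ha]

theorem colSwap_comm (S : Finset R) (x y : C) (G : R → C → Bool) :
    colSwap S x y G = colSwap S y x G := by
  funext a b
  simp [colSwap, Equiv.swap_comm]

theorem colSwap_self (S : Finset R) (x : C) (G : R → C → Bool) : colSwap S x x G = G := by
  funext a b
  simp [colSwap]

theorem rowSum_colSwap (S : Finset R) (x y : C) (G : R → C → Bool) (i : R) :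
    rowSum (colSwap S x y G) i = rowSum G i := by
  unfold rowSum
  by_cases hi : i ∈ S
  · refine Finset.card_equiv (Equiv.swap x y) ?_
    intro b
    simp [colSwap, hi]
  · simp [colSwap, hi]

theorem sameMarg_refl (G : R → C → Bool) : SameMarg G G := ⟨fun _ => rfl, fun _ => rfl⟩

theorem sameMarg_symm {G H : R → C → Bool} (h : SameMarg G H) : SameMarg H G :=
  ⟨fun i => (h.1 i).symm, fun x => (h.2 x).symm⟩

theorem sameMarg_trans {G H K : R → C → Bool} (h1 : SameMarg G H) (h2 : SameMarg H K) :
    SameMarg G K :=
  ⟨fun i => (h1.1 i).trans (h2.1 i), fun x => (h1.2 x).trans (h2.2 x)⟩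

theorem sameMarg_equiv :
    Equivalence (SameMarg : (R → C → Bool) → (R → C → Bool) → Prop) :=
  ⟨sameMarg_refl, sameMarg_symm, sameMarg_trans⟩

theorem relP_refl (i j : R) (G : R → C → Bool) : RelP i j G G :=
  ⟨fun _ _ _ => rfl, sameMarg_refl G⟩

theorem relP_symm {i j : R} {G H : R → C → Bool} (h : RelP i j G H) : RelP i j H G :=
  ⟨fun k hki hkj => (h.1 k hki hkj).symm, sameMarg_symm h.2⟩

theorem relP_trans {i j : R} {G H K : R → C → Bool} (h1 : RelP i j G H) (h2 : RelP i j H K) :
    RelP i j G K :=
  ⟨fun k hki hkj => (h1.1 k hki hkj).trans (h2.1 k hki hkj), sameMarg_trans h1.2 h2.2⟩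

theorem relP_equiv (i j : R) :
    Equivalence (RelP i j : (R → C → Bool) → (R → C → Bool) → Prop) :=
  ⟨relP_refl i j, relP_symm, relP_trans⟩

theorem relP_comm (i j : R) (G H : R → C → Bool) : RelP i j G H ↔ RelP j i G H :=
  ⟨fun h => ⟨fun k hkj hki => h.1 k hki hkj, h.2⟩, fun h => ⟨fun k hki hkj => h.1 k hkj hki, h.2⟩⟩

/-- A margin-preserving column swap inside rows `i, j` stays in the fibre. -/
theorem relP_colSwap {i j : R} {x y : C} {G : R → C → Bool}
    (h : SameMarg G (colSwap {i, j} x y G)) : RelP i j G (colSwap {i, j} x y G) := by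
  refine ⟨fun k hki hkj => ?_, h⟩
  have : k ∉ ({i, j} : Finset R) := by simp [hki, hkj]
  exact (colSwap_apply_not_mem this).symm

/-- Column sum as a sum of indicators. -/
theorem colSum_eq_sum (G : R → C → Bool) (x : C) :
    colSum G x = ∑ i, if G i x = true then 1 else 0 := by
  unfold colSum
  rw [Finset.card_filter]

/-- Row sum as a sum of indicators. -/
theorem rowSum_eq_sum (G : R → C → Bool) (i : R) :
    rowSum G i = ∑ x, if G i x = true then 1 else 0 := by
  unfold rowSum
  rw [Finset.card_filter]

/-- Square completion for disjoint row pairs. -/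
theorem relP_square (i j k l : R) (hik : i ≠ k) (hil : i ≠ l) (hjk : j ≠ k) (hjl : j ≠ l)
    (G H H' : R → C → Bool) (h1 : RelP i j G H) (h2 : RelP k l H H') :
    ∃ H'', RelP k l G H'' ∧ RelP i j H'' H' := by
  classical
  -- rows k, l from H', the other rows from G
  let K : R → C → Bool := fun a => if a = k ∨ a = l then H' a else G a
  have hKrow : ∀ a, rowSum K a = rowSum G a := by
    intro a
    by_cases ha : a = k ∨ a = l
    · have e1 : rowSum K a = rowSum H' a := by
        unfold rowSum; simp [K, ha]
      rw [e1, ← h2.2.1 a, ← h1.2.1 a]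
    · unfold rowSum; simp [K, ha]
  -- column sums: compare the contributions of rows k, l
  have hKcol : ∀ x, colSum K x = colSum G x := by
    intro x
    rw [colSum_eq_sum, colSum_eq_sum]
    have e1 : ∀ a, (if K a x = true then 1 else 0 : ℕ)
        = (if (a = k ∨ a = l) then (if H' a x = true then 1 else 0) else 0)
          + (if (a = k ∨ a = l) then 0 else (if G a x = true then 1 else 0)) := by
      intro a
      by_cases ha : a = k ∨ a = l <;> simp [K, ha]
    have e2 : ∀ a, (if G a x = true then 1 else 0 : ℕ)
        = (if (a = k ∨ a = l) then (if G a x = true then 1 else 0) else 0)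
          + (if (a = k ∨ a = l) then 0 else (if G a x = true then 1 else 0)) := by
      intro a
      by_cases ha : a = k ∨ a = l <;> simp [ha]
    rw [Finset.sum_congr rfl (fun a _ => e1 a), Finset.sum_congr rfl (fun a _ => e2 a),
      Finset.sum_add_distrib, Finset.sum_add_distrib]
    congr 1
    -- contributions of rows k, l: H' versus G
    have c1 := h2.2.2 x
    have c2 := h1.2.2 x
    rw [colSum_eq_sum, colSum_eq_sum] at c1 c2
    have e3 : ∀ (M : R → C → Bool), (∑ a, if M a x = true then 1 else 0 : ℕ)
        = (∑ a, if (a = k ∨ a = l) then (if M a x = true then 1 else 0) else 0)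
          + (∑ a, if (a = k ∨ a = l) then 0 else (if M a x = true then 1 else 0)) := by
      intro M
      rw [← Finset.sum_add_distrib]
      refine Finset.sum_congr rfl (fun a _ => ?_)
      by_cases ha : a = k ∨ a = l <;> simp [ha]
    rw [e3 H, e3 H'] at c1
    rw [e3 G, e3 H] at c2
    -- rows outside k, l agree between H and H'
    have e4 : (∑ a, if (a = k ∨ a = l) then 0 else (if H a x = true then 1 else 0) : ℕ)
        = ∑ a, if (a = k ∨ a = l) then 0 else (if H' a x = true then 1 else 0) := by
      refine Finset.sum_congr rfl (fun a _ => ?_)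
      by_cases ha : a = k ∨ a = l
      · simp [ha]
      · have hak : a ≠ k := fun h => ha (Or.inl h)
        have hal : a ≠ l := fun h => ha (Or.inr h)
        simp [ha, h2.1 a hak hal]
    -- rows k, l agree between G and H
    have e5 : (∑ a, if (a = k ∨ a = l) then (if G a x = true then 1 else 0) else 0 : ℕ)
        = ∑ a, if (a = k ∨ a = l) then (if H a x = true then 1 else 0) else 0 := by
      refine Finset.sum_congr rfl (fun a _ => ?_)
      by_cases ha : a = k ∨ a = l
      · have hai : a ≠ i := by
          rcases ha with ha | ha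
          · rw [ha]; exact fun h => hik h.symm
          · rw [ha]; exact fun h => hil h.symm
        have haj : a ≠ j := by
          rcases ha with ha | ha
          · rw [ha]; exact fun h => hjk h.symm
          · rw [ha]; exact fun h => hjl h.symm
        simp [ha, h1.1 a hai haj]
      · simp [ha]
    omega
  refine ⟨K, ⟨fun a hak hal => ?_, fun a => (hKrow a).symm, fun x => (hKcol x).symm⟩,
    ⟨fun a hai haj => ?_, fun a => ?_, fun x => ?_⟩⟩
  · simp [K, hak, hal]
  · by_cases ha : a = k ∨ a = l
    · simp [K, ha]
    · have hak : a ≠ k := fun h => ha (Or.inl h)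
      have hal : a ≠ l := fun h => ha (Or.inr h)
      simp only [K, ha, if_false]
      rw [h1.1 a hai haj, h2.1 a hak hal]
  · rw [hKrow a, h1.2.1 a, h2.2.1 a]
  · rw [hKcol x, h1.2.2 x, h2.2.2 x]

/-- Fibres of disjoint row pairs meet in a point. -/
theorem relP_inter (i j k l : R) (hik : i ≠ k) (hil : i ≠ l) (hjk : j ≠ k) (hjl : j ≠ l)
    (G H : R → C → Bool) (h1 : RelP i j G H) (h2 : RelP k l G H) : G = H := by
  funext a
  by_cases ha : a = i ∨ a = j
  · have hak : a ≠ k := by
      rcases ha with ha | ha
      · rw [ha]; exact hik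
      · rw [ha]; exact hjk
    have hal : a ≠ l := by
      rcases ha with ha | ha
      · rw [ha]; exact hil
      · rw [ha]; exact hjl
    exact h2.1 a hak hal
  · exact h1.1 a (fun h => ha (Or.inl h)) (fun h => ha (Or.inr h))

end Vale.Agent.H90
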