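import Vale.Agent.H40.KTV.LocOf
import Vale.Agent.H7.KTV.JSFibre
import Vale.Agent.H86.KTV.FibreModel
import Vale.Agent.H59.KTV.LocAux
import Vale.Agent.H27.KTV.Tri
import Vale.Agent.H55.KTV.R5a
import Vale.Agent.H89.KTV.GraphPoincare
import Vale.Agent.H89.KTV.SqNoncrit
import Vale.Agent.H36.KTV.RptRow

/-!
Simple graphs, all degree sequences: assembly of the Poincare inequality with constant `2`
for the switch graph on the realizations of an arbitrary degree function.

Ingredients (each proved in the module named):
* `loc` : the local inequality for two disjoint vertex pairs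
  (`Vale.Agent.H40.KTV.loc_of`, with the model facts of `H36.KTV.RptRow`, `H59.KTV.LocAux`,
  `H89.KTV.SqNoncrit` and the abstract pair lemma `H75.KTV.PairLemma`);
* `js` : the Johnson surplus on the pair fibres (`H7.KTV.JSFibre`, `H86.KTV.FibreModel`,
  `H73.KTV.JohnsonSurplus`);
* `tri` : the vertex-triple inequality, transferred from the three-row theorem for Boolean
  matrices (`H27.KTV.Tri`, `Vale.Agent.H90.g3_cyclic`);
* the bookkeeping `H55.KTV.R5a` and the spectral assembly `H89.KTV.GraphPoincare`.
-/

namespace Vale.Agent.H90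

open Finset SimpleGraph
open scoped Classical
open Vale.Agent.H90 (dot avgRel)
open Vale.Agent.H40.KTV
open Vale.Agent.H12.Switch

variable {V : Type} [Fintype V]

/-- Local inequality for the disjoint vertex pairs `{u, v}`, `{w, z}`. -/
theorem graph_loc (u v w z : V) (h : Dist4 u v w z) (f : SimpleGraph V → ℝ) :
    (1 / 2 : ℝ) * DT u v w z f - XT u v w z f - XT w z u v f ≤ 2 * dot (QP u v f) (QP w z f) :=
  loc_of Vale.Agent.H36.rpt_equiv Vale.Agent.H36.rpt_frozen Vale.Agent.H36.rpt_inter
    Vale.Agent.H59.centre_avg Vale.Agent.H59.sym_avg Vale.Agent.H89.sq_noncrit u v w z h f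

/-- Johnson surplus on the pair fibres of `{u, v}`. -/
theorem graph_js (u v : V) (huv : u ≠ v) (f : SimpleGraph V → ℝ) :
    (∑ w, ∑ z, (if Dist4 u v w z then XT u v w z f else 0))
        + 2 * dot (QP u v f) (QP u v f)
      ≤ (1 / 4 : ℝ) * ∑ w, ∑ z, (if Dist4 u v w z then DT u v w z f else 0) :=
  Vale.Agent.H7.js_of_fibre Vale.Agent.H86.fibre_model u v huv f

/-- **Poincare inequality with constant 2** for the switch graph on the simple graphs with
degree function `d`, for every `d`. -/
theorem graph_poincare (d : V → ℕ) (f : Omega d → ℝ) (hf : ∑ G, f G = 0) :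
    2 * ∑ G, f G ^ 2 ≤ ∑ G, f G * lapΩ d f G :=
  Vale.Agent.H89.graph_poincare_of
    (fun u v w huv hvw huw g => Vale.Agent.H27.tri u v w huv hvw huw g)
    (fun g => Vale.Agent.H55.dp_of (fun u v w z h g' => graph_loc u v w z h g')
      (fun u v huv g' => graph_js u v huv g') g)
    (fun g => Vale.Agent.H55.k_le_l_of (fun u v huv g' => graph_js u v huv g') g) d f hf

end Vale.Agent.H90
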