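import Vale.Agent.H90.KTV.Triple

/-!
The row-pair switch Laplacian `LJ i j` dominates four times the complementary
projection of the row-pair fibre (Johnson step).
-/

namespace Vale.Agent.H90

open Finset

set_option linter.unusedSectionVars false

section

variable {R C : Type*} [Fintype R] [DecidableEq R] [Fintype C] [DecidableEq C]

/-- Reindexing a sum over all matrices by a column swap. -/
theorem sum_colSwap (S : Finset R) (x y : C) (F : (R → C → Bool) → ℝ) :
    ∑ G, F (colSwap S x y G) = ∑ G, F G := by
  have hinv : Function.Involutive (colSwap S x y : (R → C → Bool) → (R → C → Bool)) :=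
    colSwap_invol S x y
  exact Equiv.sum_comp hinv.toPerm F

theorem sameMarg_colSwap_iff (S : Finset R) (x y : C) (G : R → C → Bool) :
    SameMarg (colSwap S x y G) (colSwap S x y (colSwap S x y G)) ↔
      SameMarg G (colSwap S x y G) := by
  rw [colSwap_invol]
  exact ⟨sameMarg_symm, sameMarg_symm⟩

theorem LJ_add (i j : R) (f g : (R → C → Bool) → ℝ) :
    LJ i j (f + g) = LJ i j f + LJ i j g := by
  funext G
  simp only [LJ, Pi.add_apply]
  rw [← Finset.sum_add_distrib]
  refine Finset.sum_congr rfl (fun x _ => ?_)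
  rw [← Finset.sum_add_distrib]
  refine Finset.sum_congr rfl (fun y _ => ?_)
  by_cases h : SameMarg G (colSwap {i, j} x y G)
  · simp only [if_pos h]; ring
  · simp only [if_neg h]; ring

theorem LJ_smul (i j : R) (c : ℝ) (f : (R → C → Bool) → ℝ) :
    LJ i j (c • f) = c • LJ i j f := by
  funext G
  simp only [LJ, Pi.smul_apply, smul_eq_mul]
  rw [Finset.mul_sum]
  refine Finset.sum_congr rfl (fun x _ => ?_)
  rw [Finset.mul_sum]
  refine Finset.sum_congr rfl (fun y _ => ?_)
  by_cases h : SameMarg G (colSwap {i, j} x y G)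
  · simp only [if_pos h]; ring
  · simp only [if_neg h]; ring

/-- Expansion of `dot g (LJ i j f)` as a triple sum. -/
theorem dot_LJ (i j : R) (f g : (R → C → Bool) → ℝ) :
    dot g (LJ i j f) = ∑ x, ∑ y, ∑ G,
      if SameMarg G (colSwap {i, j} x y G) then g G * (f G - f (colSwap {i, j} x y G))
      else 0 := by
  unfold dot LJ
  have e : ∀ G : R → C → Bool, g G * (∑ x, ∑ y,
      if SameMarg G (colSwap {i, j} x y G) then f G - f (colSwap {i, j} x y G) else 0)
      = ∑ x, ∑ y, if SameMarg G (colSwap {i, j} x y G) then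
          g G * (f G - f (colSwap {i, j} x y G)) else 0 := by
    intro G
    rw [Finset.mul_sum]
    refine Finset.sum_congr rfl (fun x _ => ?_)
    rw [Finset.mul_sum]
    refine Finset.sum_congr rfl (fun y _ => ?_)
    by_cases h : SameMarg G (colSwap {i, j} x y G)
    · simp only [if_pos h]
    · simp only [if_neg h, mul_zero]
  rw [Finset.sum_congr rfl (fun G _ => e G), Finset.sum_comm]
  refine Finset.sum_congr rfl (fun x _ => ?_)
  rw [Finset.sum_comm]

/-- Symmetry of one summand. -/
theorem LJ_term_symm (i j : R) (x y : C) (f g : (R → C → Bool) → ℝ) :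
    (∑ G, if SameMarg G (colSwap {i, j} x y G) then g G * (f G - f (colSwap {i, j} x y G))
      else 0)
    = ∑ G, if SameMarg G (colSwap {i, j} x y G) then f G * (g G - g (colSwap {i, j} x y G))
      else 0 := by
  have h1 := sum_colSwap ({i, j} : Finset R) x y
    (fun G => if SameMarg G (colSwap {i, j} x y G) then g (colSwap {i, j} x y G) * f G else 0)
  have h1' : ∑ G, (if SameMarg G (colSwap {i, j} x y G) then g G * f (colSwap {i, j} x y G)
      else 0)
      = ∑ G, if SameMarg G (colSwap {i, j} x y G) then g (colSwap {i, j} x y G) * f G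
          else 0 := by
    rw [← h1]
    refine Finset.sum_congr rfl (fun G _ => ?_)
    by_cases h : SameMarg G (colSwap {i, j} x y G)
    · have h' := (sameMarg_colSwap_iff ({i, j} : Finset R) x y G).2 h
      rw [if_pos h, if_pos h', colSwap_invol]
    · have h' : ¬ SameMarg (colSwap {i, j} x y G)
          (colSwap {i, j} x y (colSwap {i, j} x y G)) :=
        fun hh => h ((sameMarg_colSwap_iff ({i, j} : Finset R) x y G).1 hh)
      rw [if_neg h, if_neg h']
  have e1 : (∑ G, if SameMarg G (colSwap {i, j} x y G) then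
      g G * (f G - f (colSwap {i, j} x y G)) else 0)
      = (∑ G, if SameMarg G (colSwap {i, j} x y G) then g G * f G else 0)
        - ∑ G, if SameMarg G (colSwap {i, j} x y G) then g G * f (colSwap {i, j} x y G)
            else 0 := by
    rw [← Finset.sum_sub_distrib]
    refine Finset.sum_congr rfl (fun G _ => ?_)
    by_cases h : SameMarg G (colSwap {i, j} x y G)
    · simp only [if_pos h]; ring
    · simp only [if_neg h]; ring
  have e2 : (∑ G, if SameMarg G (colSwap {i, j} x y G) then
      f G * (g G - g (colSwap {i, j} x y G)) else 0)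
      = (∑ G, if SameMarg G (colSwap {i, j} x y G) then g G * f G else 0)
        - ∑ G, if SameMarg G (colSwap {i, j} x y G) then g (colSwap {i, j} x y G) * f G
            else 0 := by
    rw [← Finset.sum_sub_distrib]
    refine Finset.sum_congr rfl (fun G _ => ?_)
    by_cases h : SameMarg G (colSwap {i, j} x y G)
    · simp only [if_pos h]; ring
    · simp only [if_neg h]; ring
  rw [e1, e2, h1']

theorem LJ_dot (i j : R) (f g : (R → C → Bool) → ℝ) :
    dot f (LJ i j g) = dot (LJ i j f) g := by
  rw [dot_comm (LJ i j f) g, dot_LJ, dot_LJ]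
  refine Finset.sum_congr rfl (fun x _ => ?_)
  refine Finset.sum_congr rfl (fun y _ => ?_)
  exact LJ_term_symm i j x y g f

/-- Dirichlet form of `LJ`. -/
theorem dot_LJ_self (i j : R) (h : (R → C → Bool) → ℝ) :
    2 * dot h (LJ i j h) = ∑ x, ∑ y, ∑ G,
      if SameMarg G (colSwap {i, j} x y G) then (h G - h (colSwap {i, j} x y G)) ^ 2
      else 0 := by
  rw [dot_LJ, Finset.mul_sum]
  refine Finset.sum_congr rfl (fun x _ => ?_)
  rw [Finset.mul_sum]
  refine Finset.sum_congr rfl (fun y _ => ?_)
  -- reindex the sum of h (T G)^2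
  have h1 := sum_colSwap ({i, j} : Finset R) x y
    (fun G => if SameMarg G (colSwap {i, j} x y G) then h G * (h G - h (colSwap {i, j} x y G))
      else 0)
  have h1' : ∑ G, (if SameMarg G (colSwap {i, j} x y G) then
      h (colSwap {i, j} x y G) * (h (colSwap {i, j} x y G) - h G) else 0)
      = ∑ G, if SameMarg G (colSwap {i, j} x y G) then
          h G * (h G - h (colSwap {i, j} x y G)) else 0 := by
    rw [← h1]
    refine Finset.sum_congr rfl (fun G _ => ?_)
    by_cases hh : SameMarg G (colSwap {i, j} x y G)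
    · have h' := (sameMarg_colSwap_iff ({i, j} : Finset R) x y G).2 hh
      rw [if_pos hh, if_pos h', colSwap_invol]
    · have h' : ¬ SameMarg (colSwap {i, j} x y G)
          (colSwap {i, j} x y (colSwap {i, j} x y G)) :=
        fun hh' => hh ((sameMarg_colSwap_iff ({i, j} : Finset R) x y G).1 hh')
      rw [if_neg hh, if_neg h']
  have e : (∑ G, if SameMarg G (colSwap {i, j} x y G) then
      (h G - h (colSwap {i, j} x y G)) ^ 2 else 0)
      = (∑ G, if SameMarg G (colSwap {i, j} x y G) then
          h G * (h G - h (colSwap {i, j} x y G)) else 0)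
        + ∑ G, if SameMarg G (colSwap {i, j} x y G) then
          h (colSwap {i, j} x y G) * (h (colSwap {i, j} x y G) - h G) else 0 := by
    rw [← Finset.sum_add_distrib]
    refine Finset.sum_congr rfl (fun G _ => ?_)
    by_cases hh : SameMarg G (colSwap {i, j} x y G)
    · simp only [if_pos hh]; ring
    · simp only [if_neg hh]; ring
  rw [e, h1']
  ring

/-- The eigenvalues of `LJ i j` are `0` or at least `4`. -/
theorem LJ_eigen (i j : R) (hij : i ≠ j) (μ : ℝ) (f : (R → C → Bool) → ℝ) (hf0 : f ≠ 0)
    (hf : LJ i j f = μ • f) : μ = 0 ∨ 4 ≤ μ := by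
  by_contra hcon
  have hcon' : μ ≠ 0 ∧ μ < 4 := by
    constructor
    · exact fun h => hcon (Or.inl h)
    · exact lt_of_not_ge (fun h => hcon (Or.inr h))
  obtain ⟨hμ0, hμ4⟩ := hcon'
  set N : ℝ := (Fintype.card C : ℝ) ^ 2 + 2 with hN
  have hNpos : 0 < N := by positivity
  let M : ((R → C → Bool) → ℝ) → ((R → C → Bool) → ℝ) := fun g => g - (1 / N) • LJ i j g
  let ρ : (R → C → Bool) → (R → C → Bool) → Prop :=
    fun G G' => ∃ u v, G' = colSwap {i, j} u v G ∧ SameMarg G G' ∧ G' ≠ G
  have hA : ∀ (g : (R → C → Bool) → ℝ) (L : ℝ), (∀ G G', ρ G G' → |g G - g G'| ≤ L) →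
      ∀ G G', ρ G G' → |M g G - M g G'| ≤ ((N - 4) / N) * L := by
    intro g L hL G G' hGG'
    have hLnn : 0 ≤ L := le_trans (abs_nonneg _) (hL G G' hGG')
    obtain ⟨u, v, rfl, hsm, hne⟩ := hGG'
    have hL' : ∀ A x y, SameMarg A (colSwap {i, j} x y A) →
        |g A - g (colSwap {i, j} x y A)| ≤ L := by
      intro A x y hA
      by_cases hAA : colSwap {i, j} x y A = A
      · rw [hAA, sub_self, abs_zero]; exact hLnn
      · exact hL A _ ⟨x, y, rfl, hA, hAA⟩
    have hc := Pending.johnson_coupling i j hij g L hL' G u v hsm hne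
    have e : M g G - M g (colSwap {i, j} u v G)
        = (1 / N) * (N * (g G - g (colSwap {i, j} u v G))
            - (LJ i j g G - LJ i j g (colSwap {i, j} u v G))) := by
      simp only [M, Pi.sub_apply, Pi.smul_apply, smul_eq_mul]
      field_simp
      ring
    rw [e, abs_mul, abs_of_pos (by positivity : (0 : ℝ) < 1 / N)]
    have hc' : |N * (g G - g (colSwap {i, j} u v G))
        - (LJ i j g G - LJ i j g (colSwap {i, j} u v G))| ≤ (N - 4) * L := by
      have : N - 4 = (Fintype.card C : ℝ) ^ 2 - 2 := by rw [hN]; ring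
      rw [this]; exact hc
    calc 1 / N * |N * (g G - g (colSwap {i, j} u v G))
            - (LJ i j g G - LJ i j g (colSwap {i, j} u v G))|
        ≤ 1 / N * ((N - 4) * L) := by
          apply mul_le_mul_of_nonneg_left hc'; positivity
      _ = (N - 4) / N * L := by ring
  have hB : ∀ (g : (R → C → Bool) → ℝ) (LA LB : ℝ), (∀ G G', ρ G G' → |g G - g G'| ≤ LA) →
      (∀ G G' : R → C → Bool, False → |g G - g G'| ≤ LB) →
      ∀ G G' : R → C → Bool, False → |M g G - M g G'| ≤ ((N - 4) / N) * (LA + LB) := by
    intro g LA LB _ _ G G' hF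
    exact absurd hF id
  have hMf : M f = (1 - μ / N) • f := by
    funext G
    simp only [M, Pi.sub_apply, Pi.smul_apply, smul_eq_mul, hf]
    ring
  have hlam : (N - 4) / N < 1 - μ / N := by
    rw [div_lt_iff₀ hNpos]
    have : (1 - μ / N) * N = N - μ := by field_simp
    rw [this]; linarith
  have hinv := (lip_eigen M ρ (fun _ _ => False) ((N - 4) / N) hA hB (1 - μ / N) hlam f hMf).1
  have hzero : LJ i j f = 0 := by
    funext G
    simp only [LJ, Pi.zero_apply]
    refine Finset.sum_eq_zero (fun x _ => Finset.sum_eq_zero (fun y _ => ?_))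
    by_cases h : SameMarg G (colSwap {i, j} x y G)
    · rw [if_pos h]
      by_cases hAA : colSwap {i, j} x y G = G
      · rw [hAA, sub_self]
      · rw [hinv G _ ⟨x, y, rfl, h, hAA⟩, sub_self]
    · rw [if_neg h]
  rw [hzero] at hf
  have : f = 0 := by
    funext G
    have := congrFun hf G
    simp only [Pi.zero_apply, Pi.smul_apply, smul_eq_mul] at this
    rcases mul_eq_zero.1 this.symm with h | h
    · exact absurd h hμ0
    · exact h
  exact hf0 this

/-- Johnson step: the row-pair switch Laplacian dominates `4 Q`. -/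
theorem johnson_gap (i j : R) (hij : i ≠ j) (f : (R → C → Bool) → ℝ) :
    4 * dot f (Qrel (RelP i j) f) ≤ dot f (LJ i j f) := by
  have heq := relP_equiv (R := R) (C := C) i j
  set g := Qrel (RelP i j) f with hg
  -- LJ kills fibre-invariant functions
  have hkill : ∀ h : (R → C → Bool) → ℝ, (∀ G H, RelP i j G H → h G = h H) → LJ i j h = 0 := by
    intro h hh
    funext G
    simp only [LJ, Pi.zero_apply]
    refine Finset.sum_eq_zero (fun x _ => Finset.sum_eq_zero (fun y _ => ?_))
    by_cases hs : SameMarg G (colSwap {i, j} x y G)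
    · rw [if_pos hs, hh G _ (relP_colSwap hs), sub_self]
    · rw [if_neg hs]
  have hP : LJ i j (avgRel (RelP i j) f) = 0 :=
    hkill _ (fun G H hGH => avgRel_of_rel heq f hGH)
  have hfg : f = g + avgRel (RelP i j) f := by
    rw [hg]; unfold Qrel; abel
  have hLf : LJ i j f = LJ i j g := by
    conv_lhs => rw [hfg]
    rw [LJ_add, hP, add_zero]
  have e1 : dot f (LJ i j f) = dot g (LJ i j g) := by
    rw [hLf]
    conv_lhs => rw [hfg]
    rw [dot_add_left, LJ_dot i j (avgRel (RelP i j) f) g, hP, dot_zero_left, add_zero]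
  -- g is orthogonal to the kernel of LJ
  have horth : ∀ h, LJ i j h = 0 → dot g h = 0 := by
    intro h hh
    have h0 : 2 * dot h (LJ i j h) = 0 := by rw [hh, dot_zero_right, mul_zero]
    rw [dot_LJ_self] at h0
    have hinv : ∀ A x y, SameMarg A (colSwap {i, j} x y A) → h A = h (colSwap {i, j} x y A) := by
      intro A x y hA
      have hnn1 : ∀ x' ∈ (univ : Finset C), 0 ≤ ∑ y', ∑ G,
          if SameMarg G (colSwap {i, j} x' y' G) then (h G - h (colSwap {i, j} x' y' G)) ^ 2
          else 0 := by
        intro x' _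
        refine Finset.sum_nonneg (fun y' _ => Finset.sum_nonneg (fun G _ => ?_))
        by_cases hs : SameMarg G (colSwap {i, j} x' y' G)
        · rw [if_pos hs]; positivity
        · rw [if_neg hs]
      have s1 := (Finset.sum_eq_zero_iff_of_nonneg hnn1).1 h0 x (Finset.mem_univ x)
      have hnn2 : ∀ y' ∈ (univ : Finset C), 0 ≤ ∑ G,
          if SameMarg G (colSwap {i, j} x y' G) then (h G - h (colSwap {i, j} x y' G)) ^ 2
          else 0 := by
        intro y' _
        refine Finset.sum_nonneg (fun G _ => ?_)
        by_cases hs : SameMarg G (colSwap {i, j} x y' G)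
        · rw [if_pos hs]; positivity
        · rw [if_neg hs]
      have s2 := (Finset.sum_eq_zero_iff_of_nonneg hnn2).1 s1 y (Finset.mem_univ y)
      have hnn3 : ∀ G ∈ (univ : Finset (R → C → Bool)), 0 ≤
          (if SameMarg G (colSwap {i, j} x y G) then (h G - h (colSwap {i, j} x y G)) ^ 2
          else 0) := by
        intro G _
        by_cases hs : SameMarg G (colSwap {i, j} x y G)
        · rw [if_pos hs]; positivity
        · rw [if_neg hs]
      have s3 := (Finset.sum_eq_zero_iff_of_nonneg hnn3).1 s2 A (Finset.mem_univ A)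
      rw [if_pos hA] at s3
      have := pow_eq_zero_iff (n := 2) (by norm_num) |>.1 s3
      linarith
    have hrel : ∀ G H, RelP i j G H → h G = h H := Pending.johnson_inv i j hij h hinv
    have hQ : Qrel (RelP i j) h = 0 := Qrel_eq_zero_of_inv heq h hrel
    rw [hg, ← Qrel_dot heq, hQ, dot_zero_right]
  have key := Pending.spec_gap (LJ i j) (LJ_add i j) (LJ_smul i j)
    (fun a b => LJ_dot i j a b) 4 (fun μ h hh0 hh => LJ_eigen i j hij μ h hh0 hh) g horth
  rw [e1]
  have : dot g g = dot f (Qrel (RelP i j) f) := by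
    rw [hg]; exact dot_Qrel_self heq f
  rw [← this]
  exact key

end

end Vale.Agent.H90
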