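import Vale.Agent.H90.KTV.G3

/-!
The Poincare inequality with constant 2 for the switch graph on all Boolean matrices
(block diagonal over the margin classes).
-/

namespace Vale.Agent.H90

open Finset

set_option linter.unusedSectionVars false

section

variable {R C : Type*} [Fintype R] [DecidableEq R] [Fintype C] [DecidableEq C]

/-- The sum of the complementary row-pair projections dominates twice the complementary
projection of the margin classes. -/
theorem rowpair_gap (f : (R → C → Bool) → ℝ) :
    2 * dot (Qrel SameMarg f) (Qrel SameMarg f)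
      ≤ dot f (Ksum (fun i j : R => (RelP i j : (R → C → Bool) → (R → C → Bool) → Prop)) f) := by
  have heq : ∀ i j : R, Equivalence (RelP i j : (R → C → Bool) → (R → C → Bool) → Prop) :=
    fun i j => relP_equiv i j
  have hSM := sameMarg_equiv (R := R) (C := C)
  set K := Ksum (fun i j : R => (RelP i j : (R → C → Bool) → (R → C → Bool) → Prop)) with hK
  set g := Qrel SameMarg f with hg
  -- K kills class functions
  have hkill : ∀ h : (R → C → Bool) → ℝ, (∀ G H, SameMarg G H → h G = h H) → K h = 0 := by
    intro h hh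
    rw [hK]
    unfold Ksum
    refine Finset.sum_eq_zero (fun i _ => Finset.sum_eq_zero (fun j _ => ?_))
    by_cases hij : i ≠ j
    · rw [if_pos hij]
      exact Qrel_eq_zero_of_inv (heq i j) h (fun G H hGH => hh G H hGH.2)
    · rw [if_neg hij]
  have hP : K (avgRel SameMarg f) = 0 :=
    hkill _ (fun G H hGH => avgRel_of_rel hSM f hGH)
  have hfg : f = g + avgRel SameMarg f := by
    rw [hg]; unfold Qrel; abel
  have hKf : K f = K g := by
    conv_lhs => rw [hfg]
    rw [hK, Ksum_add, ← hK, hP, add_zero]
  have e1 : dot f (K f) = dot g (K g) := by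
    rw [hKf]
    conv_lhs => rw [hfg]
    rw [dot_add_left, hK, Ksum_dot heq (avgRel SameMarg f) g, ← hK, hP, dot_zero_left, add_zero]
  have horth : ∀ h, K h = 0 → dot g h = 0 := by
    intro h hh
    have hrel : ∀ i j : R, i ≠ j → ∀ G H, RelP i j G H → h G = h H := by
      intro i j hij
      exact inv_of_Qrel_eq_zero (heq i j) h (Qrel_eq_zero_of_Ksum heq h hh i j hij)
    have hcls : ∀ G H, SameMarg G H → h G = h H := Pending.ryser_inv h hrel
    have hQ : Qrel SameMarg h = 0 := Qrel_eq_zero_of_inv hSM h hcls
    rw [hg, ← Qrel_dot hSM, hQ, dot_zero_right]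
  have key := Ksum_gap (rel := fun i j : R =>
      (RelP i j : (R → C → Bool) → (R → C → Bool) → Prop)) heq
    (fun i j G H => relP_comm i j G H)
    (fun i j k l hik hil hjk hjl G H H' h1 h2 => relP_square i j k l hik hil hjk hjl G H H' h1 h2)
    (fun i j k l hik hil hjk hjl G H h1 h2 => relP_inter i j k l hik hil hjk hjl G H h1 h2)
    (fun i j k hij hjk hik f' => g3_cyclic i j k hij hjk hik f') g horth
  rw [e1]
  exact key

/-- Main inequality: Poincare inequality with constant 2 for the switch graph, written on
all Boolean matrices (every switch is counted four times on the right). -/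
theorem bip_main (f : (R → C → Bool) → ℝ) :
    16 * ∑ G, (f G - avgRel SameMarg f G) ^ 2 ≤
      ∑ G, ∑ i, ∑ j, (if i ≠ j then ∑ x, ∑ y,
        (if SameMarg G (colSwap {i, j} x y G) then (f G - f (colSwap {i, j} x y G)) ^ 2 else 0)
        else 0) := by
  have h1 := rowpair_gap f
  have e0 : dot (Qrel SameMarg f) (Qrel SameMarg f) = ∑ G, (f G - avgRel SameMarg f G) ^ 2 := by
    unfold dot Qrel
    refine Finset.sum_congr rfl (fun G _ => ?_)
    simp only [Pi.sub_apply]; ring
  rw [e0, dot_Ksum_right] at h1
  -- Johnson step on each ordered pair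
  have h2 : (∑ i : R, ∑ j : R, if i ≠ j then dot f (Qrel (RelP i j) f) else 0)
      ≤ ∑ i : R, ∑ j : R, if i ≠ j then (1 / 8 : ℝ) * (∑ x, ∑ y, ∑ G : R → C → Bool,
          if SameMarg G (colSwap {i, j} x y G) then (f G - f (colSwap {i, j} x y G)) ^ 2
          else 0) else 0 := by
    refine Finset.sum_le_sum (fun i _ => Finset.sum_le_sum (fun j _ => ?_))
    by_cases hij : i ≠ j
    · rw [if_pos hij, if_pos hij, ← dot_LJ_self]
      have := johnson_gap i j hij f
      linarith
    · rw [if_neg hij, if_neg hij]
  -- reorder the sums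
  have e3 : (∑ G : R → C → Bool, ∑ i : R, ∑ j : R, (if i ≠ j then ∑ x, ∑ y,
        (if SameMarg G (colSwap {i, j} x y G) then (f G - f (colSwap {i, j} x y G)) ^ 2 else 0)
        else 0))
      = ∑ i : R, ∑ j : R, if i ≠ j then (∑ x, ∑ y, ∑ G : R → C → Bool,
          if SameMarg G (colSwap {i, j} x y G) then (f G - f (colSwap {i, j} x y G)) ^ 2
          else 0) else 0 := by
    rw [Finset.sum_comm]
    refine Finset.sum_congr rfl (fun i _ => ?_)
    rw [Finset.sum_comm]
    refine Finset.sum_congr rfl (fun j _ => ?_)
    by_cases hij : i ≠ j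
    · simp only [if_pos hij]
      rw [Finset.sum_comm]
      refine Finset.sum_congr rfl (fun x _ => ?_)
      rw [Finset.sum_comm]
    · simp only [if_neg hij]
      exact Finset.sum_const_zero
  rw [e3]
  have e4 : (∑ i : R, ∑ j : R, if i ≠ j then (1 / 8 : ℝ) * (∑ x, ∑ y, ∑ G : R → C → Bool,
          if SameMarg G (colSwap {i, j} x y G) then (f G - f (colSwap {i, j} x y G)) ^ 2
          else 0) else 0)
      = (1 / 8 : ℝ) * ∑ i : R, ∑ j : R, if i ≠ j then (∑ x, ∑ y, ∑ G : R → C → Bool,
          if SameMarg G (colSwap {i, j} x y G) then (f G - f (colSwap {i, j} x y G)) ^ 2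
          else 0) else 0 := by
    rw [Finset.mul_sum]
    refine Finset.sum_congr rfl (fun i _ => ?_)
    rw [Finset.mul_sum]
    refine Finset.sum_congr rfl (fun j _ => ?_)
    by_cases hij : i ≠ j
    · rw [if_pos hij, if_pos hij]
    · rw [if_neg hij, if_neg hij, mul_zero]
  rw [e4] at h2
  linarith

end

end Vale.Agent.H90
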