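import Vale.Agent.H90.KTV.Basic
import Vale.Agent.H90.KTV.Abs
import Vale.Agent.H58.KTV.Spec
import Vale.Agent.H7.KTV.Johnson
import Vale.Agent.H3.KTV.Ryser
import Vale.Agent.H83.KTV.JohnsonCoupling
import Vale.Agent.H27.KTV.ClaimA
import Vale.Agent.H18.KTV.CombTriple
import Vale.Agent.H75.KTV.CaseI

/-!
Glue file: the lemmas proved by the other seats, re-exported under fixed names.
-/

namespace Vale.Agent.H90.Pending

open Finset Vale.Agent.H90

theorem spec_gap {Ω : Type*} [Fintype Ω] (A : (Ω → ℝ) → (Ω → ℝ))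
    (hadd : ∀ f g, A (f + g) = A f + A g) (hsmul : ∀ (c : ℝ) f, A (c • f) = c • A f)
    (hsym : ∀ f g, dot f (A g) = dot (A f) g) (c : ℝ)
    (heig : ∀ (μ : ℝ) (f : Ω → ℝ), f ≠ 0 → A f = μ • f → μ = 0 ∨ c ≤ μ)
    (f : Ω → ℝ) (hf : ∀ g, A g = 0 → dot f g = 0) : c * dot f f ≤ dot f (A f) :=
  Vale.Agent.H58.spec_gap A hadd hsmul hsym c heig f hf

theorem spec_sq {Ω : Type*} [Fintype Ω] (A : (Ω → ℝ) → (Ω → ℝ))
    (hadd : ∀ f g, A (f + g) = A f + A g) (hsmul : ∀ (c : ℝ) f, A (c • f) = c • A f)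
    (hsym : ∀ f g, dot f (A g) = dot (A f) g) (c : ℝ) (hc : 0 ≤ c)
    (heig : ∀ (μ : ℝ) (f : Ω → ℝ), f ≠ 0 → A f = μ • f → μ = 0 ∨ c ≤ μ)
    (f : Ω → ℝ) : c * dot f (A f) ≤ dot (A f) (A f) :=
  Vale.Agent.H58.spec_sq A hadd hsmul hsym c hc heig f

theorem comb_triple {I : Type*} [Fintype I] [DecidableEq I] (a : I → I → I → I → ℝ)
    (hs1 : ∀ i j k l, a i j k l = a j i k l) (hs2 : ∀ i j k l, a i j k l = a i j l k)
    (hdisj : ∀ i j k l, i ≠ j → k ≠ l → i ≠ k → i ≠ l → j ≠ k → j ≠ l → 0 ≤ a i j k l)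
    (htri : ∀ i j k, i ≠ j → j ≠ k → i ≠ k → 0 ≤ a i j j k + a j k k i + a k i i j) :
    2 * ∑ i, ∑ j, (if i ≠ j then a i j i j else 0) ≤
      ∑ i, ∑ j, ∑ k, ∑ l, (if i ≠ j ∧ k ≠ l then a i j k l else 0) :=
  Vale.Agent.H18.comb_triple a hs1 hs2 hdisj htri

section Bip
variable {R C : Type*} [Fintype R] [DecidableEq R] [Fintype C] [DecidableEq C]

theorem johnson_inv {α : Type*} (i j : R) (hij : i ≠ j) (f : (R → C → Bool) → α)
    (hf : ∀ A x y, SameMarg A (colSwap {i, j} x y A) → f A = f (colSwap {i, j} x y A)) :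
    ∀ G H, RelP i j G H → f G = f H :=
  Vale.Agent.H7.johnson_inv i j hij f hf

theorem ryser_inv {α : Type*} (f : (R → C → Bool) → α)
    (hf : ∀ i j, i ≠ j → ∀ G H, RelP i j G H → f G = f H) :
    ∀ G H, SameMarg G H → f G = f H :=
  Vale.Agent.H3.ryser_inv f hf

theorem johnson_coupling (i j : R) (hij : i ≠ j) (f : (R → C → Bool) → ℝ) (L : ℝ)
    (hL : ∀ A x y, SameMarg A (colSwap {i, j} x y A) → |f A - f (colSwap {i, j} x y A)| ≤ L)
    (G : R → C → Bool) (u v : C) (h : SameMarg G (colSwap {i, j} u v G))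
    (hne : colSwap {i, j} u v G ≠ G) :
    |((Fintype.card C : ℝ) ^ 2 + 2) * (f G - f (colSwap {i, j} u v G))
        - (LJ i j f G - LJ i j f (colSwap {i, j} u v G))|
      ≤ ((Fintype.card C : ℝ) ^ 2 - 2) * L :=
  Vale.Agent.H83.johnson_coupling i j hij f L hL G u v h hne

theorem g3_claimA (i j k : R) (hij : i ≠ j) (hjk : j ≠ k) (hik : i ≠ k)
    (f : (R → C → Bool) → ℝ) (L : ℝ)
    (hL : ∀ A x y, SameMarg A (colSwap {i, j, k} x y A) →
      |f A - f (colSwap {i, j, k} x y A)| ≤ L)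
    (G : R → C → Bool) (x y : C) (h : SameMarg G (colSwap {i, j, k} x y G)) :
    |(avgRel (RelP i j) f G + avgRel (RelP j k) f G + avgRel (RelP i k) f G)
      - (avgRel (RelP i j) f (colSwap {i, j, k} x y G)
          + avgRel (RelP j k) f (colSwap {i, j, k} x y G)
          + avgRel (RelP i k) f (colSwap {i, j, k} x y G))| ≤ 2 * L :=
  Vale.Agent.H27.g3_claimA i j k hij hjk hik f L hL G x y h

theorem g3_caseI (a b e : R) (hab : a ≠ b) (hae : a ≠ e) (hbe : b ≠ e)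
    (f : (R → C → Bool) → ℝ) (LA LB : ℝ)
    (hA : ∀ A x y, SameMarg A (colSwap {a, b, e} x y A) →
      |f A - f (colSwap {a, b, e} x y A)| ≤ LA)
    (hB : ∀ A A', (RelB a b e A A' ∨ RelB b e a A A' ∨ RelB e a b A A') → |f A - f A'| ≤ LB)
    (G : R → C → Bool) (x y : C)
    (hax : G a x = true) (hay : G a y = false) (hbx : G b x = false) (hby : G b y = true)
    (hex : G e x = true) (hey : G e y = false) :
    |avgRel (RelP a e) f G - avgRel (RelP a e) f (colSwap {a, b} x y G)| ≤ LA + LB :=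
  Vale.Agent.H75.g3_caseI a b e hab hae hbe f LA LB hA hB G x y hax hay hbx hby hex hey

end Bip

end Vale.Agent.H90.Pending
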