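import Vale.Agent.H90.KTV.Pending

/-!
Complementary projections `Qrel`, and the triple trick: for a family of fibre relations
indexed by pairs of sites such that disjoint pairs commute and every triple satisfies the
cyclic inequality, the sum `K` of the complementary projections satisfies `K^2 ≥ K`,
hence has a spectral gap.
-/

namespace Vale.Agent.H90

open Finset

set_option linter.unusedSectionVars false

section

variable {Ω : Type*} [Fintype Ω] [DecidableEq Ω]

/-- The complementary projection `f - avgRel rel f`. -/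
noncomputable def Qrel (rel : Ω → Ω → Prop) [DecidableRel rel] (f : Ω → ℝ) : Ω → ℝ :=
  f - avgRel rel f

section Q

variable (rel : Ω → Ω → Prop) [DecidableRel rel]

theorem Qrel_congr (rel' : Ω → Ω → Prop) [DecidableRel rel'] (h : ∀ x y, rel x y ↔ rel' x y)
    (f : Ω → ℝ) : Qrel rel f = Qrel rel' f := by
  unfold Qrel; rw [avgRel_congr rel rel' h]

theorem Qrel_add (f g : Ω → ℝ) : Qrel rel (f + g) = Qrel rel f + Qrel rel g := by
  unfold Qrel; rw [avgRel_add]; abel

theorem Qrel_smul (c : ℝ) (f : Ω → ℝ) : Qrel rel (c • f) = c • Qrel rel f := by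
  unfold Qrel; rw [avgRel_smul, smul_sub]

variable {rel}

theorem Qrel_dot (h : Equivalence rel) (f g : Ω → ℝ) :
    dot f (Qrel rel g) = dot (Qrel rel f) g := by
  unfold Qrel; rw [dot_sub_right, dot_sub_left, avgRel_dot h]

theorem avgRel_Qrel (h : Equivalence rel) (f : Ω → ℝ) : avgRel rel (Qrel rel f) = 0 := by
  unfold Qrel; rw [avgRel_sub, avgRel_idem h, sub_self]

theorem Qrel_idem (h : Equivalence rel) (f : Ω → ℝ) : Qrel rel (Qrel rel f) = Qrel rel f := by
  have := avgRel_Qrel h f
  unfold Qrel at this ⊢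
  rw [this, sub_zero]

theorem dot_Qrel_self (h : Equivalence rel) (f : Ω → ℝ) :
    dot (Qrel rel f) (Qrel rel f) = dot f (Qrel rel f) := by
  rw [← Qrel_dot h, Qrel_idem h]

theorem dot_Qrel_nonneg (h : Equivalence rel) (f : Ω → ℝ) : 0 ≤ dot f (Qrel rel f) := by
  rw [← dot_Qrel_self h]; exact dot_self_nonneg _

theorem Qrel_eq_zero_of_inv (h : Equivalence rel) (f : Ω → ℝ)
    (hf : ∀ x y, rel x y → f x = f y) : Qrel rel f = 0 := by
  unfold Qrel; rw [avgRel_eq_self h f hf, sub_self]

theorem inv_of_Qrel_eq_zero (h : Equivalence rel) (f : Ω → ℝ) (hf : Qrel rel f = 0) :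
    ∀ x y, rel x y → f x = f y := by
  intro x y hxy
  have e : f = avgRel rel f := by
    unfold Qrel at hf
    exact sub_eq_zero.1 hf
  rw [e]
  exact avgRel_of_rel h f hxy

theorem Qrel_comm {r1 r2 : Ω → Ω → Prop} [DecidableRel r1] [DecidableRel r2]
    (h1 : Equivalence r1) (h2 : Equivalence r2)
    (hsq : ∀ x y z, r1 x y → r2 y z → ∃ w, r2 x w ∧ r1 w z)
    (hu : ∀ x y, r1 x y → r2 x y → x = y) (f : Ω → ℝ) :
    Qrel r1 (Qrel r2 f) = Qrel r2 (Qrel r1 f) := by
  have := avgRel_comm h1 h2 hsq hu f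
  unfold Qrel
  rw [avgRel_sub, avgRel_sub, this]
  abel

end Q

/-! ### The triple trick -/

section triple

variable {I : Type*} [Fintype I] [DecidableEq I]
variable (rel : I → I → Ω → Ω → Prop) [∀ i j, DecidableRel (rel i j)]

/-- The sum of the complementary projections over ordered pairs of distinct sites. -/
noncomputable def Ksum (f : Ω → ℝ) : Ω → ℝ :=
  ∑ i, ∑ j, if i ≠ j then Qrel (rel i j) f else 0

theorem Ksum_add (f g : Ω → ℝ) : Ksum rel (f + g) = Ksum rel f + Ksum rel g := by
  unfold Ksum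
  rw [← Finset.sum_add_distrib]
  refine Finset.sum_congr rfl (fun i _ => ?_)
  rw [← Finset.sum_add_distrib]
  refine Finset.sum_congr rfl (fun j _ => ?_)
  by_cases hij : i ≠ j
  · simp only [if_pos hij]; exact Qrel_add _ f g
  · simp only [if_neg hij]; simp

theorem Ksum_smul (c : ℝ) (f : Ω → ℝ) : Ksum rel (c • f) = c • Ksum rel f := by
  unfold Ksum
  rw [Finset.smul_sum]
  refine Finset.sum_congr rfl (fun i _ => ?_)
  rw [Finset.smul_sum]
  refine Finset.sum_congr rfl (fun j _ => ?_)
  by_cases hij : i ≠ j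
  · simp only [if_pos hij]; exact Qrel_smul _ c f
  · simp only [if_neg hij]; simp

theorem dot_ite_left (c : Prop) [Decidable c] (g h : Ω → ℝ) :
    dot (if c then g else 0) h = if c then dot g h else 0 := by
  by_cases hc : c <;> simp [hc, dot_zero_left]

theorem dot_ite_right (c : Prop) [Decidable c] (g h : Ω → ℝ) :
    dot h (if c then g else 0) = if c then dot h g else 0 := by
  by_cases hc : c <;> simp [hc, dot_zero_right]

theorem dot_Ksum_right (g f : Ω → ℝ) :
    dot g (Ksum rel f) = ∑ i, ∑ j, if i ≠ j then dot g (Qrel (rel i j) f) else 0 := by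
  unfold Ksum
  rw [dot_sum_right]
  refine Finset.sum_congr rfl (fun i _ => ?_)
  rw [dot_sum_right]
  refine Finset.sum_congr rfl (fun j _ => ?_)
  rw [dot_ite_right]

theorem dot_Ksum_left (g f : Ω → ℝ) :
    dot (Ksum rel f) g = ∑ i, ∑ j, if i ≠ j then dot (Qrel (rel i j) f) g else 0 := by
  rw [dot_comm, dot_Ksum_right]
  refine Finset.sum_congr rfl (fun i _ => ?_)
  refine Finset.sum_congr rfl (fun j _ => ?_)
  by_cases hij : i ≠ j <;> simp [hij, dot_comm]

variable {rel}

theorem Ksum_dot (heq : ∀ i j, Equivalence (rel i j)) (f g : Ω → ℝ) :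
    dot f (Ksum rel g) = dot (Ksum rel f) g := by
  rw [dot_Ksum_right, dot_Ksum_left]
  refine Finset.sum_congr rfl (fun i _ => ?_)
  refine Finset.sum_congr rfl (fun j _ => ?_)
  by_cases hij : i ≠ j
  · simp only [if_pos hij]; exact Qrel_dot (heq i j) f g
  · simp only [if_neg hij]

theorem dot_Ksum_self (heq : ∀ i j, Equivalence (rel i j)) (f : Ω → ℝ) :
    dot f (Ksum rel f)
      = ∑ i, ∑ j, if i ≠ j then dot (Qrel (rel i j) f) (Qrel (rel i j) f) else 0 := by
  rw [dot_Ksum_right]
  refine Finset.sum_congr rfl (fun i _ => ?_)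
  refine Finset.sum_congr rfl (fun j _ => ?_)
  by_cases hij : i ≠ j
  · simp only [if_pos hij]; exact (dot_Qrel_self (heq i j) f).symm
  · simp only [if_neg hij]

theorem dot_Ksum_nonneg (heq : ∀ i j, Equivalence (rel i j)) (f : Ω → ℝ) :
    0 ≤ dot f (Ksum rel f) := by
  rw [dot_Ksum_self heq]
  refine Finset.sum_nonneg (fun i _ => Finset.sum_nonneg (fun j _ => ?_))
  by_cases hij : i ≠ j
  · simp only [if_pos hij]; exact dot_self_nonneg _
  · simp only [if_neg hij]; simp

/-- If `Ksum rel f = 0` then every `Qrel (rel i j) f` vanishes. -/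
theorem Qrel_eq_zero_of_Ksum (heq : ∀ i j, Equivalence (rel i j)) (f : Ω → ℝ)
    (hf : Ksum rel f = 0) (i j : I) (hij : i ≠ j) : Qrel (rel i j) f = 0 := by
  have h0 : dot f (Ksum rel f) = 0 := by rw [hf, dot_zero_right]
  rw [dot_Ksum_self heq] at h0
  have hnn : ∀ a ∈ (univ : Finset I), 0 ≤ ∑ b, if a ≠ b then
      dot (Qrel (rel a b) f) (Qrel (rel a b) f) else 0 := by
    intro a _
    refine Finset.sum_nonneg (fun b _ => ?_)
    by_cases hab : a ≠ b
    · simp only [if_pos hab]; exact dot_self_nonneg _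
    · simp only [if_neg hab]; exact le_refl _
  have h1 := (Finset.sum_eq_zero_iff_of_nonneg hnn).1 h0 i (Finset.mem_univ i)
  have hnn2 : ∀ b ∈ (univ : Finset I), 0 ≤ (if i ≠ b then
      dot (Qrel (rel i b) f) (Qrel (rel i b) f) else 0) := by
    intro b _
    by_cases hab : i ≠ b
    · simp only [if_pos hab]; exact dot_self_nonneg _
    · simp only [if_neg hab]; exact le_refl _
  have h2 := (Finset.sum_eq_zero_iff_of_nonneg hnn2).1 h1 j (Finset.mem_univ j)
  rw [if_pos hij] at h2
  exact dot_self_eq_zero h2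

theorem triple_sq (heq : ∀ i j, Equivalence (rel i j))
    (hsymm : ∀ i j x y, rel i j x y ↔ rel j i x y)
    (hsq : ∀ i j k l, i ≠ k → i ≠ l → j ≠ k → j ≠ l →
      ∀ x y z, rel i j x y → rel k l y z → ∃ w, rel k l x w ∧ rel i j w z)
    (hu : ∀ i j k l, i ≠ k → i ≠ l → j ≠ k → j ≠ l →
      ∀ x y, rel i j x y → rel k l x y → x = y)
    (htri : ∀ i j k, i ≠ j → j ≠ k → i ≠ k → ∀ f : Ω → ℝ,
      0 ≤ dot (Qrel (rel i j) f) (Qrel (rel j k) f)
        + dot (Qrel (rel j k) f) (Qrel (rel k i) f)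
        + dot (Qrel (rel k i) f) (Qrel (rel i j) f))
    (f : Ω → ℝ) : 2 * dot f (Ksum rel f) ≤ dot (Ksum rel f) (Ksum rel f) := by
  have hQs : ∀ i j, Qrel (rel i j) f = Qrel (rel j i) f :=
    fun i j => Qrel_congr _ _ (hsymm i j) f
  have hcomb := Pending.comb_triple
    (fun i j k l => dot (Qrel (rel i j) f) (Qrel (rel k l) f))
    (fun i j k l => by show dot _ _ = dot _ _; rw [hQs i j])
    (fun i j k l => by show dot _ _ = dot _ _; rw [hQs k l])
    (fun i j k l _ _ hik hil hjk hjl => by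
      show 0 ≤ dot (Qrel (rel i j) f) (Qrel (rel k l) f)
      have hc : ∀ g, Qrel (rel i j) (Qrel (rel k l) g) = Qrel (rel k l) (Qrel (rel i j) g) :=
        fun g => Qrel_comm (heq i j) (heq k l) (hsq i j k l hik hil hjk hjl)
          (hu i j k l hik hil hjk hjl) g
      have e : dot (Qrel (rel i j) f) (Qrel (rel k l) f)
          = dot (Qrel (rel i j) (Qrel (rel k l) f)) (Qrel (rel i j) (Qrel (rel k l) f)) := by
        calc dot (Qrel (rel i j) f) (Qrel (rel k l) f)
            = dot (Qrel (rel i j) f) (Qrel (rel k l) (Qrel (rel k l) f)) := by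
              rw [Qrel_idem (heq k l)]
          _ = dot (Qrel (rel k l) (Qrel (rel i j) f)) (Qrel (rel k l) f) := by
              rw [Qrel_dot (heq k l)]
          _ = dot (Qrel (rel i j) (Qrel (rel k l) f)) (Qrel (rel k l) f) := by
              rw [hc]
          _ = dot (Qrel (rel i j) (Qrel (rel i j) (Qrel (rel k l) f))) (Qrel (rel k l) f) := by
              rw [Qrel_idem (heq i j)]
          _ = dot (Qrel (rel i j) (Qrel (rel k l) f)) (Qrel (rel i j) (Qrel (rel k l) f)) := by
              rw [← Qrel_dot (heq i j)]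
      rw [e]
      exact dot_self_nonneg _)
    (fun i j k hij hjk hik => htri i j k hij hjk hik f)
  have e1 : dot f (Ksum rel f)
      = ∑ i, ∑ j, if i ≠ j then dot (Qrel (rel i j) f) (Qrel (rel i j) f) else 0 :=
    dot_Ksum_self heq f
  have e2 : dot (Ksum rel f) (Ksum rel f)
      = ∑ i, ∑ j, ∑ k, ∑ l,
          if i ≠ j ∧ k ≠ l then dot (Qrel (rel i j) f) (Qrel (rel k l) f) else 0 := by
    rw [dot_Ksum_left]
    refine Finset.sum_congr rfl (fun i _ => ?_)
    refine Finset.sum_congr rfl (fun j _ => ?_)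
    by_cases hij : i ≠ j
    · rw [if_pos hij, dot_Ksum_right]
      refine Finset.sum_congr rfl (fun k _ => ?_)
      refine Finset.sum_congr rfl (fun l _ => ?_)
      by_cases hkl : k ≠ l
      · rw [if_pos hkl, if_pos ⟨hij, hkl⟩]
      · rw [if_neg hkl, if_neg (fun h => hkl h.2)]
    · rw [if_neg hij]
      symm
      refine Finset.sum_eq_zero (fun k _ => ?_)
      refine Finset.sum_eq_zero (fun l _ => ?_)
      rw [if_neg (fun h => hij h.1)]
  rw [e1, e2]
  exact hcomb

/-- Spectral gap of `Ksum`: on the orthogonal complement of its kernel, `K ≥ 2`. -/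
theorem Ksum_gap (heq : ∀ i j, Equivalence (rel i j))
    (hsymm : ∀ i j x y, rel i j x y ↔ rel j i x y)
    (hsq : ∀ i j k l, i ≠ k → i ≠ l → j ≠ k → j ≠ l →
      ∀ x y z, rel i j x y → rel k l y z → ∃ w, rel k l x w ∧ rel i j w z)
    (hu : ∀ i j k l, i ≠ k → i ≠ l → j ≠ k → j ≠ l →
      ∀ x y, rel i j x y → rel k l x y → x = y)
    (htri : ∀ i j k, i ≠ j → j ≠ k → i ≠ k → ∀ f : Ω → ℝ,
      0 ≤ dot (Qrel (rel i j) f) (Qrel (rel j k) f)
        + dot (Qrel (rel j k) f) (Qrel (rel k i) f)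
        + dot (Qrel (rel k i) f) (Qrel (rel i j) f))
    (f : Ω → ℝ) (hf : ∀ g, Ksum rel g = 0 → dot f g = 0) :
    2 * dot f f ≤ dot f (Ksum rel f) := by
  refine Pending.spec_gap (Ksum rel) (Ksum_add rel) (Ksum_smul rel) (Ksum_dot heq) 2 ?_ f hf
  intro μ g hg hμ
  have h1 := triple_sq heq hsymm hsq hu htri g
  have h2 := dot_Ksum_nonneg heq g
  rw [hμ] at h1 h2
  rw [dot_smul_right] at h1 h2
  rw [dot_smul_left, dot_smul_right] at h1
  have hpos : 0 < dot g g := by
    rcases (dot_self_nonneg g).lt_or_eq with h | h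
    · exact h
    · exact absurd (dot_self_eq_zero h.symm) hg
  have hμ0 : 0 ≤ μ := by
    by_contra hcon
    have : μ * dot g g < 0 := mul_neg_of_neg_of_pos (lt_of_not_ge hcon) hpos
    linarith
  rcases hμ0.lt_or_eq with h | h
  · right
    have h3 : 2 * μ ≤ μ * μ := by
      have : (2 * μ) * dot g g ≤ (μ * μ) * dot g g := by nlinarith
      exact le_of_mul_le_mul_right this hpos
    nlinarith
  · left; exact h.symm

end triple

end

end Vale.Agent.H90
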